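import Vale.Agent.P004.H628.QW5

/-!
# P004E: a class of twists of `y² = x³ - A x` with root number `-1`
-/

open Real MeasureTheory Set

namespace P004
namespace QN

open P004G (cop RQ TH FEq StQ)
open scoped NumberTheorySymbols

/-- **Root numbers of the twists**, with the conductor. -/
theorem root_twist' {B : ℤ} (hB : B ≠ 0) : ∃ (κ : ℝ) (N : ℕ) (q₀ : ℝ), (κ = 1 ∨ κ = -1) ∧ 0 < N ∧
    0 < q₀ ∧ ∀ k : ℕ, Squarefree k → k % 2 = 1 → k.Coprime (RQ B) →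
      FEq (AQ (B * (k : ℤ) ^ 2)) (q₀ * (k : ℝ) ^ 2) (κ * ((J(-(N : ℤ) | k) : ℤ) : ℝ)) := by
  obtain ⟨F, G, hFG, hR, hper, hprim⟩ := exists_FG B
  obtain ⟨hsupp, hval⟩ := hat_main B hFG hper hprim
  have hM0 : (MQ B : GaussianInt) ≠ 0 := by exact_mod_cast MQ_ne_zero B
  have hF0 : F ≠ 0 := by
    rintro rfl
    rw [zero_mul] at hFG
    exact hM0 hFG.symm
  have hG0 : G ≠ 0 := by
    rintro rfl
    rw [mul_zero] at hFG
    exact hM0 hFG.symm
  have hFn : 0 < F.norm := GaussianInt.norm_pos.2 hF0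
  have hGn : 0 < G.norm := GaussianInt.norm_pos.2 hG0
  have hFR : (0 : ℝ) < (F.norm : ℝ) := by exact_mod_cast hFn
  have hfe := TH_fe' B hFG hsupp hval
  obtain ⟨κ, hκ, hc⟩ := const_real B hFR hfe
  have hNG : ((G.norm.natAbs : ℕ) : ℤ) = G.norm := Int.natAbs_of_nonneg (GaussianInt.norm_nonneg G)
  refine ⟨κ, G.norm.natAbs, (F.norm : ℝ), hκ, Int.natAbs_pos.2 hGn.ne', hFR,
    fun k hk hk2 hkR => ?_⟩
  rw [hNG]
  set B' : ℤ := B * (k : ℤ) ^ 2 with hB'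
  have hk0 : k ≠ 0 := hk.ne_zero
  have hkR0 : (0 : ℝ) < (k : ℝ) := by exact_mod_cast Nat.pos_of_ne_zero hk0
  have hMk : MQ B' = MQ B * k := MQ_sq hB hk hk2 hkR
  have hFG' : F * (k : GaussianInt) * G = (MQ B' : GaussianInt) := by
    rw [hMk]; push_cast; rw [← hFG]; ring
  have hsupp' : ∀ w, ¬ G ∣ w → hat B' w = 0 := by
    intro w hw
    rw [hat_twist hB hk hk2 hkR, hsupp w hw, mul_zero]
  have hval' : ∀ w, hat B' (G * w) = (starRingEnd ℂ) (PhiC B' w) * hat B' G := by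
    intro w
    rw [hat_twist hB hk hk2 hkR, hat_twist hB hk hk2 hkR, hval, PhiC_sq hB hk hk2 hkR,
      Zsqrtd.norm_mul, jacobiSym.mul_left, map_mul, map_intCast]
    push_cast
    ring
  have hfe' := TH_fe' B' hFG' hsupp' hval'
  have hFk : 0 < (((F * (k : GaussianInt)).norm : ℤ) : ℝ) := by
    rw [Zsqrtd.norm_mul, Zsqrtd.norm_natCast]
    push_cast
    positivity
  obtain ⟨κ', hκ', hc'⟩ := const_real B' hFk hfe'
  have hkk : (κ' : ℂ) = ((κ * ((J(-G.norm | k) : ℤ) : ℝ) : ℝ) : ℂ) := by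
    rw [← hc']
    push_cast
    rw [← hc, Zsqrtd.norm_mul, Zsqrtd.norm_natCast, hMk, hat_twist hB hk hk2 hkR]
    have h1 : J(-G.norm | k) = J(-1 | k) * J(G.norm | k) := by
      rw [← jacobiSym.mul_left]; congr 1; ring
    rw [h1]
    have hk' : (k : ℂ) ≠ 0 := by exact_mod_cast hk0
    have hM' : ((MQ B : ℕ) : ℂ) ≠ 0 := by exact_mod_cast MQ_ne_zero B
    push_cast
    field_simp
  have hkk' : κ' = κ * ((J(-G.norm | k) : ℤ) : ℝ) := by exact_mod_cast hkk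
  have hqk : (F.norm : ℝ) * (k : ℝ) ^ 2 = (((F * (k : GaussianInt)).norm : ℤ) : ℝ) := by
    rw [Zsqrtd.norm_mul, Zsqrtd.norm_natCast]
    push_cast
    ring
  rw [hqk]
  refine ⟨hFk, ?_, ?_⟩
  · rw [← hkk']; exact hκ'
  · intro u hu
    rw [← hkk']
    have h1 := hfe' u hu
    have hq' : (((((F * (k : GaussianInt)).norm : ℤ) : ℝ)) : ℂ) ≠ 0 := by exact_mod_cast hFk.ne'
    have hu' : (u : ℂ) ≠ 0 := by exact_mod_cast hu.ne'
    have h2 : (-Complex.I / ((MQ B' : ℝ) ^ 3 : ℝ) *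
      (hat B' G * (((G.re : ℤ) : ℂ) - Complex.I * ((G.im : ℤ) : ℂ)))) =
        (κ' : ℂ) / (((((F * (k : GaussianInt)).norm : ℤ) : ℝ)) : ℂ) := by
      rw [eq_div_iff hq', hc']
    rw [h2] at h1
    have h3 : ((TH (AQ B') u : ℝ) : ℂ) =
        ((κ' / ((((F * (k : GaussianInt)).norm : ℤ) : ℝ) * u ^ 2) *
          TH (AQ B') (1 / ((((F * (k : GaussianInt)).norm : ℤ) : ℝ) * u)) : ℝ) : ℂ) := by
      rw [h1]
      push_cast
      field_simp
    exact_mod_cast h3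


/-- the coefficients of the twist by `m` -/
theorem AQ_twist {B : ℤ} (hB : B ≠ 0) {m : ℤ} (hm : Squarefree m) (h2 : m % 2 = 1)
    (hR : m.natAbs.Coprime (RQ B)) (n : ℕ) : AQ (B * m ^ 2) n = AQ B n * J(m | n) := by
  by_cases hn : n % 4 = 1
  · have hk : Squarefree m.natAbs := Int.squarefree_natAbs.2 hm
    have hk2 : m.natAbs % 2 = 1 := by omega
    have hodd : Odd m.natAbs := Nat.odd_iff.2 hk2
    have hno : Odd n := Nat.odd_iff.2 (by omega)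
    have e1 : B * m ^ 2 = B * ((m.natAbs : ℕ) : ℤ) ^ 2 := by
      rw [Int.natCast_natAbs, sq_abs]
    have h1 : J((n : ℤ) | m.natAbs) = J(m | n) := by
      rw [jacobiSym.quadratic_reciprocity_one_mod_four hn hodd]
      rcases Int.natAbs_eq m with h | h
      · rw [← h]
      · nth_rewrite 2 [h]
        rw [jacobiSym.neg _ hno, ZMod.χ₄_nat_one_mod_four hn, one_mul]
    rw [e1, ← h1]
    unfold AQ
    rw [Finset.sum_mul]
    apply Finset.sum_congr rfl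
    intro z hz
    rw [A1.mem_PA] at hz
    rw [Phi_sq hB hk hk2 hR, hz.1]
    have h3 : Phi B z * ((J((n : ℤ) | m.natAbs) : ℤ) : GaussianInt) * z =
        ((J((n : ℤ) | m.natAbs) : ℤ) : GaussianInt) * (Phi B z * z) := by ring
    rw [h3, Zsqrtd.re_mul, Zsqrtd.re_intCast, Zsqrtd.im_intCast]
    ring
  · rw [AQ_mod _ hn, AQ_mod _ hn, zero_mul]

lemma jac_one {N k : ℕ} (hN : 0 < N) (hk : Odd k) (h : k % (4 * N) = 1 ∨ k % (4 * N) = 4 * N - 1) :
    J((N : ℤ) | k) = 1 := by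
  rw [jacobiSym.mod_right _ hk, Int.natAbs_natCast]
  rcases h with h | h
  · rw [h, jacobiSym.one_right]
  · rw [h]
    have hodd : Odd (4 * N - 1) := Nat.odd_iff.2 (by omega)
    have h4 : J(4 | 4 * N - 1) = 1 := by
      have : (4 : ℤ) = 2 ^ 2 := by norm_num
      rw [this]
      apply jacobiSym.sq_one'
      rw [Int.gcd_eq_natAbs]
      exact (Nat.coprime_two_left).2 hodd
    have h5 : J((N : ℤ) | 4 * N - 1) = J(4 * (N : ℤ) | 4 * N - 1) := by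
      rw [jacobiSym.mul_left, h4, one_mul]
    have h6 : (4 * (N : ℤ)) = 1 + ((4 * N - 1 : ℕ) : ℤ) := by
      have : 1 ≤ 4 * N := by omega
      push_cast [Nat.cast_sub this]
      ring
    rw [h5, h6, jacobiSym.mod_left, Int.add_emod_right, ← jacobiSym.mod_left, jacobiSym.one_left]

/-- **The class.** For `A ≠ 0` there are a sign `σ`, a modulus `N` and `q₀ > 0` such that for all
squarefree `m ≡ 1 mod N` of sign `σ` the twist by `m` of `y² = x³ - A x` has coefficients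
`AQ A n (m/n)`, root number `-1` and conductor parameter `q₀ m²`. -/
theorem cls {A : ℤ} (hA : A ≠ 0) : ∃ (σ : ℤ) (N : ℕ) (q₀ : ℝ), (σ = 1 ∨ σ = -1) ∧ 0 < N ∧
    8 ∣ N ∧ 2 * RQ A ∣ N ∧ 0 < q₀ ∧ ∀ m : ℤ, Squarefree m → m.sign = σ → m % (N : ℤ) = 1 →
      FEq (AQ (A * m ^ 2)) (q₀ * (m : ℝ) ^ 2) (-1) ∧ ∀ n, AQ (A * m ^ 2) n = AQ A n * J(m | n) := by
  obtain ⟨κ, N, q₀, hκ, hN, hq, h⟩ := root_twist' hA
  obtain ⟨κ', hκ', hκe⟩ : ∃ κ' : ℤ, (κ' = 1 ∨ κ' = -1) ∧ (κ' : ℝ) = κ := by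
    rcases hκ with h | h
    · exact ⟨1, Or.inl rfl, by rw [h]; norm_num⟩
    · exact ⟨-1, Or.inr rfl, by rw [h]; norm_num⟩
  have hR0 : 0 < RQ A := Nat.pos_of_ne_zero (RQ_ne_zero A)
  refine ⟨-κ', 8 * N * RQ A, q₀, ?_, by positivity, ⟨N * RQ A, by ring⟩, ⟨4 * N, by ring⟩, hq, ?_⟩
  · rcases hκ' with h | h
    · right; rw [h]
    · left; rw [h]; norm_num
  intro m hm hs h1
  have hm1 : m % ((4 * N : ℕ) : ℤ) = 1 := by
    have h3 : (m - 1) % ((8 * N * RQ A : ℕ) : ℤ) = 0 := by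
      rw [Int.sub_emod, h1]
      have : (1 : ℤ) % ((8 * N * RQ A : ℕ) : ℤ) = 1 := Int.emod_eq_of_lt (by norm_num) (by
        have : 0 < N * RQ A := Nat.mul_pos hN hR0
        have : (8 * N * RQ A) = 8 * (N * RQ A) := by ring
        omega)
      rw [this]; simp
    have h4 : ((4 * N : ℕ) : ℤ) ∣ m - 1 := by
      refine Dvd.dvd.trans ?_ (Int.dvd_of_emod_eq_zero h3)
      exact_mod_cast (⟨2 * RQ A, by ring⟩ : (4 * N) ∣ 8 * N * RQ A)
    rw [Int.emod_eq_iff (by omega)]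
    refine ⟨by norm_num, by omega, ?_⟩
    obtain ⟨c, hc⟩ := h4
    exact ⟨-c, by linarith⟩
  have h4 : m % 4 = 1 := by
    have h5 : (4 : ℤ) ∣ m - 1 := by
      have h6 : ((4 * N : ℕ) : ℤ) ∣ m - 1 := Int.dvd_self_sub_of_emod_eq hm1
      exact Dvd.dvd.trans ⟨(N : ℤ), by push_cast; ring⟩ h6
    omega
  have hcop : m.natAbs.Coprime (RQ A) := by
    have h6 : ((8 * N * RQ A : ℕ) : ℤ) ∣ m - 1 := Int.dvd_self_sub_of_emod_eq h1
    have h7 : ((RQ A : ℕ) : ℤ) ∣ m - 1 :=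
      Dvd.dvd.trans ⟨((8 * N : ℕ) : ℤ), by push_cast; ring⟩ h6
    obtain ⟨c, hc⟩ := h7
    have h8 : IsCoprime m ((RQ A : ℕ) : ℤ) := ⟨1, -c, by linarith⟩
    have h9 := Int.isCoprime_iff_gcd_eq_one.1 h8
    rwa [Int.gcd_eq_natAbs] at h9
  have hk : Squarefree m.natAbs := Int.squarefree_natAbs.2 hm
  have hmk : ((m.natAbs : ℕ) : ℝ) ^ 2 = (m : ℝ) ^ 2 := by
    rw [Nat.cast_natAbs, Int.cast_abs, sq_abs]
  have h10 := h m.natAbs hk (by omega) hcop
  rw [hmk, jac_sign h4, hs] at h10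
  have h11 : J((N : ℤ) | m.natAbs) = 1 := by
    apply jac_one hN (Nat.odd_iff.2 (by omega))
    have h12 : ((4 * N : ℕ) : ℤ) ∣ m - 1 := Int.dvd_self_sub_of_emod_eq hm1
    have hN4 : 4 ≤ 4 * N := by omega
    rcases le_total 0 m with hm0 | hm0
    · left
      have : (m.natAbs : ℤ) = m := Int.natAbs_of_nonneg hm0
      have h13 : ((m.natAbs % (4 * N) : ℕ) : ℤ) = 1 := by
        rw [Int.natCast_mod, this]; exact hm1
      exact_mod_cast h13
    · right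
      have : (m.natAbs : ℤ) = -m := Int.ofNat_natAbs_of_nonpos hm0
      obtain ⟨c, hc⟩ := h12
      have h13 : ((m.natAbs % (4 * N) : ℕ) : ℤ) = ((4 * N : ℕ) : ℤ) - 1 := by
        rw [Int.natCast_mod, this, Int.emod_eq_iff (by omega)]
        refine ⟨by omega, by omega, ⟨c + 1, by linarith⟩⟩
      omega
  have h14 : κ * (((-κ' * J((N : ℤ) | m.natAbs) : ℤ)) : ℝ) = -1 := by
    rw [h11, ← hκe]
    rcases hκ' with h | h <;> rw [h] <;> norm_num
  rw [h14] at h10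
  have h15 : A * ((m.natAbs : ℕ) : ℤ) ^ 2 = A * m ^ 2 := by
    rw [Int.natCast_natAbs, sq_abs]
  rw [h15] at h10
  exact ⟨h10, fun n => AQ_twist hA hm (by omega) hcop n⟩

end QN
end P004
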