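import Vale.Agent.P004E.H156.Spec
import Vale.Agent.P004E.H3.Zi
import Vale.Agent.P004G.H3.Tw1

/-!
# P004E, module F (part 1): the mollifier as a Dirichlet polynomial
-/

open Finset Real

namespace P004E.F

open P004G

/-! ### products of Dirichlet polynomials -/

open scoped Classical in
/-- the product of `n` Dirichlet polynomials is a Dirichlet polynomial -/
theorem expand (S : ℕ → Finset ℕ) (c : ℕ → ℕ → ℝ) (P : ℕ → Prop) (hP1 : P 1)
    (hP : ∀ a b, P a → P b → P (a * b)) (E : ℕ → ℝ) (hE : ∀ i, 1 ≤ E i) (n : ℕ)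
    (hP0 : ∀ a, P a → a ≠ 0)
    (hS : ∀ i < n, ∀ a ∈ S i, P a ∧ (a : ℝ) ≤ E i) (hc : ∀ i < n, ∑ a ∈ S i, |c i a| ≤ E i) :
    ∃ (A : Finset ℕ) (m : ℕ → ℝ), (∀ a ∈ A, P a ∧ (a : ℝ) ≤ ∏ i ∈ range n, E i) ∧
      ∑ a ∈ A, |m a| ≤ ∏ i ∈ range n, E i ∧
      ∀ X : ℕ → ℝ, P004.CM X → ∏ i ∈ range n, Mi S c i X = ∑ a ∈ A, m a * X a := by
  induction n with
  | zero =>
    refine ⟨{1}, fun _ => 1, ?_, ?_, ?_⟩
    · intro a ha
      rw [mem_singleton] at ha
      subst ha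
      exact ⟨hP1, by simp⟩
    · simp
    · intro X hX
      simp [hX.1]
  | succ n ih =>
    obtain ⟨A, m, h1, h2, h3⟩ := ih (fun i hi => hS i (by omega)) (fun i hi => hc i (by omega))
    have hpos : ∀ k, 0 ≤ ∏ i ∈ range k, E i := fun k => prod_nonneg fun i _ => by linarith [hE i]
    set B : Finset ℕ := (A ×ˢ S n).image (fun p => p.1 * p.2) with hB
    set m' : ℕ → ℝ := fun x => ∑ p ∈ (A ×ˢ S n).filter (fun p => p.1 * p.2 = x), m p.1 * c n p.2
      with hm'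
    have hmaps : ∀ p ∈ A ×ˢ S n, p.1 * p.2 ∈ B := fun p hp => mem_image_of_mem _ hp
    refine ⟨B, m', ?_, ?_, ?_⟩
    · intro a ha
      rw [hB, mem_image] at ha
      obtain ⟨p, hp, rfl⟩ := ha
      rw [mem_product] at hp
      obtain ⟨h4, h5⟩ := h1 _ hp.1
      obtain ⟨h6, h7⟩ := hS n (by omega) _ hp.2
      refine ⟨hP _ _ h4 h6, ?_⟩
      push_cast
      rw [prod_range_succ]
      exact mul_le_mul h5 h7 (Nat.cast_nonneg _) (hpos n)
    · calc ∑ a ∈ B, |m' a| ≤ ∑ a ∈ B, ∑ p ∈ (A ×ˢ S n).filter (fun p => p.1 * p.2 = a),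
            |m p.1| * |c n p.2| := by
            apply sum_le_sum
            intro a _
            refine (abs_sum_le_sum_abs _ _).trans (le_of_eq ?_)
            exact sum_congr rfl fun p _ => abs_mul _ _
        _ = ∑ p ∈ A ×ˢ S n, |m p.1| * |c n p.2| := sum_fiberwise_of_maps_to hmaps _
        _ = (∑ a ∈ A, |m a|) * ∑ b ∈ S n, |c n b| := by
            rw [sum_product, sum_mul_sum]
        _ ≤ _ := by
            rw [prod_range_succ]
            exact mul_le_mul h2 (hc n (by omega)) (sum_nonneg fun _ _ => abs_nonneg _) (hpos n)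
    · intro X hX
      rw [prod_range_succ, h3 X hX]
      unfold Mi
      rw [sum_mul_sum, ← sum_product']
      have h4 : ∀ a ∈ B, m' a * X a = ∑ p ∈ (A ×ˢ S n).filter (fun p => p.1 * p.2 = a),
          (m p.1 * X p.1) * (c n p.2 * X p.2) := by
        intro a _
        simp only [hm']
        rw [sum_mul]
        apply sum_congr rfl
        intro p hp
        rw [mem_filter, mem_product] at hp
        rw [← hp.2, hX.2 p.1 p.2 (hP0 _ (h1 _ hp.1.1).1) (hP0 _ (hS n (by omega) _ hp.1.2).1)]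
        ring
      rw [sum_congr rfl h4]
      exact (sum_fiberwise_of_maps_to hmaps _).symm

variable [Crv]

omit [Crv] in
lemma cm_chi (h : ℤ) : P004.CM (chi h) := by
  constructor
  · unfold P004.chi; simp
  · intro a b ha hb
    exact P004.H3.chi_mul h ha hb

/-- the length of the mollifier -/
noncomputable def len (C₀ η θ z L : ℝ) : ℝ :=
  ∑ i ∈ range (nb θ z L + 1), C₀ * (L * zi θ z i) * Real.exp (η * li θ z i)

theorem moll {C₀ c₀ η y₀ θ z L : ℝ} {S : ℕ → Finset ℕ} {c : ℕ → ℕ → ℝ} (hC : 0 ≤ C₀) (hz : 0 < z)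
    (hL : 0 ≤ L) (h : BlkOK C₀ c₀ η y₀ θ z L S c) :
    ∃ (A : Finset ℕ) (m : ℕ → ℝ), (∀ a ∈ A, Good a ∧ (a : ℝ) ≤ Real.exp (len C₀ η θ z L)) ∧
      ∑ a ∈ A, |m a| ≤ Real.exp (len C₀ η θ z L) ∧
      ∀ X : ℕ → ℝ, P004.CM X →
        ∏ i ∈ range (nb θ z L + 1), Mi S c i X = ∑ a ∈ A, m a * X a := by
  have h1 := expand S c Good Good.one (fun a b ha hb => ha.mul hb)
    (fun i => Real.exp (C₀ * (L * zi θ z i) * Real.exp (η * li θ z i))) (fun i => by
      apply Real.one_le_exp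
      have := E3W.zi_pos (θ := θ) hz i
      positivity) (nb θ z L + 1) (fun a ha => ha.1)
    (fun i hi a ha => by
      obtain ⟨h2, h3, -⟩ := h.supp i (by omega) a ha
      exact ⟨h2, h3⟩)
    (fun i hi => h.coef i (by omega))
  rw [← Real.exp_sum] at h1
  exact h1

/-! ### the length -/

omit [Crv] in
lemma exp_li {η θ z : ℝ} (hz : 0 < z) (i : ℕ) :
    zi θ z i * Real.exp (η * li θ z i) = zi θ z i ^ (1 - η * θ) := by
  have h := E3W.zi_pos (θ := θ) hz i
  unfold li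
  rw [one_div, Real.log_inv, Real.rpow_sub h, Real.rpow_one, Real.rpow_def_of_pos h,
    div_eq_mul_inv, ← Real.exp_neg]
  congr 2
  ring

omit [Crv] in
lemma len_le {C₀ η θ z L η₁ : ℝ} (hC : 1 ≤ C₀) (hη : 0 < η) (hη1 : η ≤ 1) (hθ : 0 < θ)
    (hθ1 : θ ≤ 1 / 10) (h12 : 2 * θ * η ≤ η₁) (hη₁ : 0 < η₁)
    (hz : 0 < z) (hz1 : z ≤ Real.exp (-(1 / θ))) (hz2 : z ≤ (1 / (256 * C₀)) ^ (2 / η₁))
    (hL : 0 ≤ L) : len C₀ η θ z L ≤ z ^ (1 - η₁) * L / 64 := by
  have hl0 : 1 ≤ li θ z 0 := by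
    unfold li
    rw [E3W.zi_zero, one_div, Real.log_inv]
    have h1 : Real.log z ≤ -(1 / θ) := by
      rw [← Real.log_exp (-(1 / θ))]
      exact Real.log_le_log hz hz1
    have h2 : θ * (1 / θ) = 1 := by field_simp
    nlinarith
  have hz11 : z < 1 := E3W.z_lt_one hz hθ hl0
  have he0 : 0 ≤ η * θ := by positivity
  have he1 : η * θ ≤ 1 / 10 := by nlinarith
  have hq : ((1 / 2 : ℝ)) ^ (1 - η * θ) ≤ 3 / 4 := by
    calc ((1 / 2 : ℝ)) ^ (1 - η * θ) ≤ (1 / 2 : ℝ) ^ (1 / 2 : ℝ) :=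
          Real.rpow_le_rpow_of_exponent_ge (by norm_num) (by norm_num) (by linarith)
      _ ≤ 3 / 4 := by
          rw [← Real.sqrt_eq_rpow, Real.sqrt_le_left (by norm_num)]
          norm_num
  have hterm : ∀ i, zi θ z i * Real.exp (η * li θ z i) ≤ z ^ (1 - η * θ) * (3 / 4) ^ i := by
    intro i
    rw [exp_li hz]
    have h1 := E3W.zi_half_pow hz hθ hl0 0 i
    rw [zero_add, E3W.zi_zero] at h1
    calc zi θ z i ^ (1 - η * θ) ≤ (z * (1 / 2) ^ i) ^ (1 - η * θ) :=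
          Real.rpow_le_rpow (E3W.zi_pos hz i).le h1 (by linarith)
      _ = z ^ (1 - η * θ) * ((1 / 2 : ℝ) ^ (1 - η * θ)) ^ i := by
          rw [Real.mul_rpow hz.le (by positivity), ← Real.rpow_natCast ((1 / 2 : ℝ) ^ (1 - η * θ)),
            ← Real.rpow_mul (by norm_num), ← Real.rpow_natCast (1 / 2 : ℝ),
            ← Real.rpow_mul (by norm_num)]
          congr 2
          ring
      _ ≤ _ := mul_le_mul_of_nonneg_left
          (pow_le_pow_left₀ (Real.rpow_nonneg (by norm_num) _) hq i) (Real.rpow_nonneg hz.le _)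
  have hgeo : ∀ n : ℕ, ∑ i ∈ range n, (3 / 4 : ℝ) ^ i ≤ 4 := by
    intro n
    rw [geom_sum_eq (by norm_num)]
    have : (0 : ℝ) ≤ (3 / 4) ^ n := by positivity
    rw [div_le_iff_of_neg (by norm_num)]
    linarith
  have h1 : len C₀ η θ z L ≤ C₀ * L * (z ^ (1 - η * θ) * 4) := by
    unfold len
    calc ∑ i ∈ range (nb θ z L + 1), C₀ * (L * zi θ z i) * Real.exp (η * li θ z i)
        = C₀ * L * ∑ i ∈ range (nb θ z L + 1), zi θ z i * Real.exp (η * li θ z i) := by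
          rw [mul_sum]
          exact sum_congr rfl fun _ _ => by ring
      _ ≤ C₀ * L * ∑ i ∈ range (nb θ z L + 1), z ^ (1 - η * θ) * (3 / 4) ^ i := by
          apply mul_le_mul_of_nonneg_left (sum_le_sum fun i _ => hterm i) (by positivity)
      _ = C₀ * L * (z ^ (1 - η * θ) * ∑ i ∈ range (nb θ z L + 1), (3 / 4 : ℝ) ^ i) := by
          rw [← mul_sum]
      _ ≤ _ := by
          apply mul_le_mul_of_nonneg_left _ (by positivity)
          exact mul_le_mul_of_nonneg_left (hgeo _) (Real.rpow_nonneg hz.le _)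
  have h2 : z ^ (1 - η * θ) ≤ z ^ (1 - η₁) * z ^ (η₁ / 2) := by
    rw [← Real.rpow_add hz]
    apply Real.rpow_le_rpow_of_exponent_ge hz hz11.le
    nlinarith
  have h3 : z ^ (η₁ / 2) ≤ 1 / (256 * C₀) := by
    calc z ^ (η₁ / 2) ≤ ((1 / (256 * C₀)) ^ (2 / η₁)) ^ (η₁ / 2) :=
          Real.rpow_le_rpow hz.le hz2 (by linarith)
      _ = 1 / (256 * C₀) := by
          rw [← Real.rpow_mul (by positivity)]
          have : 2 / η₁ * (η₁ / 2) = 1 := by field_simp
          rw [this, Real.rpow_one]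
  have h4 : 0 ≤ z ^ (1 - η₁) := Real.rpow_nonneg hz.le _
  calc len C₀ η θ z L ≤ C₀ * L * (z ^ (1 - η * θ) * 4) := h1
    _ ≤ C₀ * L * ((z ^ (1 - η₁) * (1 / (256 * C₀))) * 4) := by
        apply mul_le_mul_of_nonneg_left _ (by positivity)
        apply mul_le_mul_of_nonneg_right _ (by norm_num)
        exact h2.trans (mul_le_mul_of_nonneg_left h3 h4)
    _ = z ^ (1 - η₁) * L / 64 := by
        field_simp
        ring

end P004E.F
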