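import Vale.Agent.P004E.H628.F1

/-!
# P004E, module F (part 2): the main window, and the second moment over all integers
-/

open Finset Real

namespace P004E.F

open P004G

/-! ### the main window -/

/-- the profile of the main window -/
noncomputable def prof (ε t : ℝ) : ℝ := t * (ηf (t / ε) * (1 - ηf (t / (3 / 2))))

lemma ηf_smooth (n : ℕ) : ContDiff ℝ n P004.ηf := by
  unfold P004.ηf
  exact (Real.smoothTransition.contDiff (n := n)).comp (contDiff_id.sub contDiff_const)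

lemma prof_smooth (ε : ℝ) (n : ℕ) : ContDiff ℝ n (prof ε) := by
  unfold prof
  exact contDiff_id.mul (((ηf_smooth n).comp (contDiff_id.div_const _)).mul
    (contDiff_const.sub ((ηf_smooth n).comp (contDiff_id.div_const _))))

lemma prof_zero {ε t : ℝ} (hε : 0 < ε) (h : t ≤ ε ∨ 3 ≤ t) : prof ε t = 0 := by
  unfold prof P004.ηf
  rcases h with h | h
  · rw [Real.smoothTransition.zero_of_nonpos (by
      rw [sub_nonpos, div_le_one hε]; exact h)]
    ring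
  · rw [Real.smoothTransition.one_of_one_le (x := t / (3 / 2) - 1) (by
      rw [le_sub_iff_add_le, le_div_iff₀ (by norm_num)]; linarith)]
    ring

lemma prof_compact {ε : ℝ} (hε : 0 < ε) : HasCompactSupport (prof ε) := by
  apply HasCompactSupport.intro (isCompact_Icc (a := ε) (b := 3))
  intro t ht
  apply prof_zero hε
  rw [Set.mem_Icc, not_and_or, not_le, not_le] at ht
  rcases ht with ht | ht
  · exact Or.inl ht.le
  · exact Or.inr ht.le

lemma prof_bound {ε : ℝ} (hε : 0 < ε) (k : ℕ) : ∃ B : ℝ, ∀ t, |iteratedDeriv k (prof ε) t| ≤ B := by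
  have h1 : Continuous (iteratedFDeriv ℝ k (prof ε)) :=
    (prof_smooth ε k).continuous_iteratedFDeriv le_rfl
  obtain ⟨B, hB⟩ := h1.bounded_above_of_compact_support ((prof_compact hε).iteratedFDeriv k)
  refine ⟨B, fun t => ?_⟩
  rw [← Real.norm_eq_abs, ← norm_iteratedFDeriv_eq_norm_iteratedDeriv]
  exact hB t

lemma hmain_eq {ε : ℝ} (Y : ℕ) (_ : 0 < Real.log Y) :
    hmain ε Y = fun x => prof ε ((Real.log Y)⁻¹ * x) := by
  funext x
  unfold hmain prof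
  have e1 : x / Real.log Y = (Real.log Y)⁻¹ * x := by rw [div_eq_inv_mul]
  have e2 : x / (ε * Real.log Y) = (Real.log Y)⁻¹ * x / ε := by
    rw [← e1, div_div, mul_comm]
  have e3 : x / (3 / 2 * Real.log Y) = (Real.log Y)⁻¹ * x / (3 / 2) := by
    rw [← e1, div_div, mul_comm]
  rw [e1, e2, e3]

lemma hmain_window {ε : ℝ} (hε : 0 < ε) (hε1 : ε ≤ 1) (n : ℕ) : ∃ b : ℝ, 0 ≤ b ∧
    ∀ Y : ℕ, 0 < Real.log Y → ContDiff ℝ n (hmain ε Y) ∧
      (∀ x, hmain ε Y x ≠ 0 → ε * Real.log Y ≤ x ∧ x ≤ 3 * Real.log Y) ∧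
      ∀ k ≤ n, ∀ x, |iteratedDeriv k (hmain ε Y) x| ≤ b * (ε * Real.log Y)⁻¹ ^ k := by
  choose B hB using fun k => prof_bound hε k
  have hB0 : ∀ k, 0 ≤ B k := fun k => (abs_nonneg _).trans (hB k 0)
  refine ⟨∑ k ∈ range (n + 1), B k, sum_nonneg fun k _ => hB0 k, fun Y hL => ⟨?_, ?_, ?_⟩⟩
  · rw [hmain_eq Y hL]
    exact (prof_smooth ε n).comp (contDiff_const.mul contDiff_id)
  · intro x hx
    rw [hmain_eq Y hL] at hx
    simp only at hx
    have h1 : ¬ ((Real.log Y)⁻¹ * x ≤ ε ∨ 3 ≤ (Real.log Y)⁻¹ * x) := fun h => hx (prof_zero hε h)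
    rw [not_or, not_le, not_le] at h1
    obtain ⟨h2, h3⟩ := h1
    rw [← div_eq_inv_mul] at h2 h3
    rw [lt_div_iff₀ hL] at h2
    rw [div_lt_iff₀ hL] at h3
    exact ⟨h2.le, h3.le⟩
  · intro k hk x
    rw [hmain_eq Y hL, iteratedDeriv_comp_const_mul (prof_smooth ε k)]
    simp only
    rw [abs_mul, abs_of_nonneg (by positivity : (0 : ℝ) ≤ (Real.log Y)⁻¹ ^ k), mul_inv, mul_pow]
    have h1 := hB k ((Real.log Y)⁻¹ * x)
    have h2 : B k ≤ ∑ k ∈ range (n + 1), B k :=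
      single_le_sum (f := B) (fun i _ => hB0 i) (mem_range.2 (by omega))
    have h3 : (1 : ℝ) ≤ ε⁻¹ ^ k := one_le_pow₀ ((one_le_inv₀ hε).2 hε1)
    have h4 : (0 : ℝ) ≤ (Real.log Y)⁻¹ ^ k := by positivity
    calc (Real.log Y)⁻¹ ^ k * |iteratedDeriv k (prof ε) ((Real.log Y)⁻¹ * x)|
        ≤ (Real.log Y)⁻¹ ^ k * ((∑ k ∈ range (n + 1), B k) * ε⁻¹ ^ k) := by
          apply mul_le_mul_of_nonneg_left _ h4
          calc |iteratedDeriv k (prof ε) ((Real.log Y)⁻¹ * x)| ≤ B k := h1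
            _ ≤ ∑ k ∈ range (n + 1), B k := h2
            _ = (∑ k ∈ range (n + 1), B k) * 1 := (mul_one _).symm
            _ ≤ _ := mul_le_mul_of_nonneg_left h3 ((hB0 k).trans h2)
      _ = _ := by ring

/-! ### the weights -/

lemma ah_neg (H : ℝ) (m : ℤ) : P004.H1.ah H (-m) = P004.H1.ah H m := by
  unfold P004.H1.ah
  push_cast
  rw [neg_sq]

lemma c0_le_ah {Y : ℕ} (hY : 0 < Y) {m : ℤ} (hm : |m| ≤ Y) :
    P004.H1.c0 ≤ P004.H1.ah Y m := by
  have hY' : (0 : ℝ) < (Y : ℝ) := by exact_mod_cast hY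
  have h1 : P004.H1.ah Y m = P004.H1.ah Y ((m.natAbs : ℕ) : ℤ) := by
    rcases Int.natAbs_eq m with h | h
    · rw [← h]
    · conv_lhs => rw [h, ah_neg]
  rw [h1]
  apply P004.H1.c0_le hY'
  have : (m.natAbs : ℤ) ≤ Y := by rw [← Int.abs_eq_natAbs]; exact hm
  exact_mod_cast this

/-! ### the second moment over all integers -/

variable [Crv]

/-- the second moment of the main window, over all integers -/
theorem second (hWin : StWin) {C₀ c₀ η : ℝ} (hC₀ : 1 ≤ C₀) (hc₀ : 0 < c₀) (hη : 0 < η)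
    (hη1 : η ≤ 1) {y₀ θ η₁ : ℝ} (hy₀ : 2 ≤ y₀) (hθ : 0 < θ) (hθ1 : θ ≤ 1 / 10)
    (h12 : 2 * θ * η ≤ η₁) (hη₁ : 0 < η₁) (hη₁' : η₁ ≤ 1 / 4) :
    ∃ z₀ : ℝ, 0 < z₀ ∧ ∀ z : ℝ, 0 < z → z ≤ z₀ → ∃ K : ℝ, 0 ≤ K ∧ ∃ Y₀ : ℕ,
      ∀ (Y : ℕ) (S : ℕ → Finset ℕ) (c : ℕ → ℕ → ℝ), Y₀ ≤ Y →
      BlkOK C₀ c₀ η y₀ θ z (Real.log Y) S c →
      ∑ k ∈ Icc (-(Y : ℤ)) Y, (Mh S c 0 (nb θ z (Real.log Y) + 1) k *
        Fw Y (hmain (z ^ (1 - η₁)) Y) k) ^ 2 ≤ K * Y := by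
  obtain ⟨A, hA⟩ := hWin C₀ c₀ η hC₀ hc₀ hη hη1
  obtain ⟨n, C, z₁, hC, hz₁, h1⟩ := hA y₀ θ hy₀ hθ hθ1
  have hz0' : 0 < (1 / (256 * C₀)) ^ (2 / η₁) := Real.rpow_pos_of_pos (by positivity) _
  refine ⟨min z₁ (min 1 ((1 / (256 * C₀)) ^ (2 / η₁))), by positivity, fun z hz hzz => ?_⟩
  have hzz1 : z ≤ z₁ := hzz.trans (min_le_left _ _)
  have hz1 : z ≤ 1 := hzz.trans ((min_le_right _ _).trans (min_le_left _ _))
  have hz2 : z ≤ (1 / (256 * C₀)) ^ (2 / η₁) := hzz.trans ((min_le_right _ _).trans (min_le_right _ _))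
  set ε := z ^ (1 - η₁) with hε
  have hε0 : 0 < ε := Real.rpow_pos_of_pos hz _
  have hε1 : ε ≤ 1 := Real.rpow_le_one hz.le hz1 (by linarith)
  obtain ⟨b, hb, hwin⟩ := hmain_window hε0 hε1 n
  have hΛ : 1 ≤ 3 / ε := by rw [le_div_iff₀ hε0]; linarith
  obtain ⟨Y₁, hY₁⟩ := h1 z hz hzz1 (3 / ε) hΛ
  set K := C * (3 / ε) ^ n * b ^ 2 * (ε / z) ^ A * (3 / ε) ^ (A * θ) * (1 + Real.log (3 / ε)) with hK
  have hK0 : 0 ≤ K := by
    have : 0 ≤ Real.log (3 / ε) := Real.log_nonneg hΛ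
    positivity
  have hc0 := P004.H1.c0_pos
  -- `Y` large
  have hlarge : ∀ᶠ Y : ℕ in Filter.atTop, 1 ≤ Real.log Y ∧
      Real.log Y ^ (1 / 200 : ℝ) ≤ ε * Real.log Y := by
    have h2 : Filter.Tendsto (fun Y : ℕ => Real.log (Y : ℝ)) Filter.atTop Filter.atTop :=
      Real.tendsto_log_atTop.comp tendsto_natCast_atTop_atTop
    have h3 : Filter.Tendsto (fun Y : ℕ => Real.log (Y : ℝ) ^ (199 / 200 : ℝ)) Filter.atTop
        Filter.atTop := (tendsto_rpow_atTop (by norm_num)).comp h2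
    filter_upwards [h2.eventually_ge_atTop 1, h3.eventually_ge_atTop (1 / ε)] with Y h4 h5
    refine ⟨h4, ?_⟩
    have hL : 0 < Real.log Y := by linarith
    rw [div_le_iff₀ hε0] at h5
    calc Real.log Y ^ (1 / 200 : ℝ) = Real.log Y ^ (1 / 200 : ℝ) * 1 := (mul_one _).symm
      _ ≤ Real.log Y ^ (1 / 200 : ℝ) * (Real.log Y ^ (199 / 200 : ℝ) * ε) :=
          mul_le_mul_of_nonneg_left h5 (Real.rpow_nonneg hL.le _)
      _ = (Real.log Y ^ (1 / 200 : ℝ) * Real.log Y ^ (199 / 200 : ℝ)) * ε := by ring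
      _ = ε * Real.log Y := by
          rw [← Real.rpow_add hL]
          norm_num
          ring
  obtain ⟨Y₂, hY₂⟩ := Filter.eventually_atTop.1 hlarge
  refine ⟨K / P004.H1.c0, by positivity, max Y₁ (max Y₂ 1), fun Y S c hY hblk => ?_⟩
  have hYY₁ : Y₁ ≤ Y := (le_max_left _ _).trans hY
  have hYY₂ : Y₂ ≤ Y := (le_max_left _ _).trans ((le_max_right _ _).trans hY)
  have hYpos : 0 < Y := lt_of_lt_of_le Nat.one_pos ((le_max_right _ _).trans ((le_max_right _ _).trans hY))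
  obtain ⟨hL1, hLε⟩ := hY₂ Y hYY₂
  have hL : 0 < Real.log Y := by linarith
  obtain ⟨hw1, hw2, hw3⟩ := hwin Y hL
  have hcond : 64 * C₀ * (Real.log Y * zi θ z 0) * Real.exp (η * li θ z 0) ≤ ε * Real.log Y := by
    have e1 : 64 * C₀ * (Real.log Y * zi θ z 0) * Real.exp (η * li θ z 0) =
        64 * C₀ * Real.log Y * (zi θ z 0 * Real.exp (η * li θ z 0)) := by ring
    rw [e1, exp_li hz, E3W.zi_zero]
    have h3 : z ^ (η₁ / 2) ≤ 1 / (256 * C₀) := by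
      calc z ^ (η₁ / 2) ≤ ((1 / (256 * C₀)) ^ (2 / η₁)) ^ (η₁ / 2) :=
            Real.rpow_le_rpow hz.le hz2 (by linarith)
        _ = 1 / (256 * C₀) := by
            rw [← Real.rpow_mul (by positivity)]
            have : 2 / η₁ * (η₁ / 2) = 1 := by field_simp
            rw [this, Real.rpow_one]
    have h2 : z ^ (1 - η * θ) ≤ ε * (1 / (256 * C₀)) := by
      calc z ^ (1 - η * θ) ≤ z ^ (1 - η₁) * z ^ (η₁ / 2) := by
            rw [← Real.rpow_add hz]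
            apply Real.rpow_le_rpow_of_exponent_ge hz hz1
            nlinarith
        _ ≤ _ := mul_le_mul_of_nonneg_left h3 hε0.le
    calc 64 * C₀ * Real.log Y * z ^ (1 - η * θ)
        ≤ 64 * C₀ * Real.log Y * (ε * (1 / (256 * C₀))) :=
          mul_le_mul_of_nonneg_left h2 (by positivity)
      _ = ε * Real.log Y / 4 := by
          field_simp
          ring
      _ ≤ ε * Real.log Y := by
          have : 0 ≤ ε * Real.log Y := by positivity
          linarith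
  obtain ⟨hs, hle⟩ := hY₁ Y S c hYY₁ hblk 0 (ε * Real.log Y) b (hmain ε Y) (Nat.zero_le _) hLε
    (by nlinarith) hcond hb hw1 (fun x hx => by
      obtain ⟨h4, h5⟩ := hw2 x hx
      refine ⟨h4, ?_, h5⟩
      have : 3 / ε * (ε * Real.log Y) = 3 * Real.log Y := by field_simp
      rw [this]; exact h5) hw3
  have e2 : ε * Real.log Y / (Real.log Y * zi θ z 0) = ε / z := by
    rw [E3W.zi_zero]; field_simp
  have e3 : 3 * Real.log Y / (ε * Real.log Y) = 3 / ε := by field_simp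
  rw [e2, e3] at hle
  have e4 : C * (3 / ε) ^ n * Y * b ^ 2 * (ε / z) ^ A * (3 / ε) ^ (A * θ) * (1 + Real.log (3 / ε)) =
      K * Y := by rw [hK]; ring
  rw [e4] at hle
  have hfin : P004.H1.c0 * ∑ k ∈ Icc (-(Y : ℤ)) Y, (Mh S c 0 (nb θ z (Real.log Y) + 1) k *
      Fw Y (hmain ε Y) k) ^ 2 ≤ K * Y := by
    rw [mul_sum]
    refine le_trans ?_ hle
    refine le_trans (sum_le_sum fun k hk => ?_) (hs.sum_le_tsum (Icc (-(Y : ℤ)) Y) (fun k _ => ?_))
    · rw [mem_Icc] at hk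
      exact mul_le_mul_of_nonneg_right (c0_le_ah hYpos (abs_le.2 hk)) (sq_nonneg _)
    · exact mul_nonneg (P004.H1.ah_nonneg _ _) (sq_nonneg _)
  rw [div_mul_eq_mul_div, le_div_iff₀ hc0]
  linarith

end P004E.F
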