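import Vale.Agent.P004E.H628.F2
import Vale.Agent.P004E.H147.PV3

/-!
# P004E, module F (part 3): squarefree detection, and the assembly of `StFirst`
-/

open Finset Real

namespace P004E.F

open P004G
open P004E.H147 (Pr clsD densD)
open P004E.H156 (rhoN StMainVal)

/-! ### the density -/

lemma densD_ge {N : ℕ} (D : ℕ) (hN : 0 < N) (h2 : 2 ∣ N) : 1 / (4 * N : ℝ) ≤ densD N D := by
  have hN0 : (0 : ℝ) < N := by exact_mod_cast hN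
  have h3 : ∀ p ∈ Pr N D, 3 ≤ p := by
    intro p hp
    unfold Pr at hp
    rw [mem_filter] at hp
    have h4 : p ≠ 2 := by
      rintro rfl
      exact hp.2.2 h2
    have := hp.2.1.two_le
    omega
  have h4 : ∑ p ∈ Pr N D, 1 / (p : ℝ) ^ 2 ≤ 1 / 2 := by
    have h5 : Pr N D ⊆ Ioc 2 (D + 2) := by
      intro p hp
      have h6 := h3 p hp
      unfold Pr at hp
      rw [mem_filter, mem_range] at hp
      rw [mem_Ioc]; omega
    calc ∑ p ∈ Pr N D, 1 / (p : ℝ) ^ 2 ≤ ∑ p ∈ Ioc 2 (D + 2), 1 / (p : ℝ) ^ 2 :=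
          sum_le_sum_of_subset_of_nonneg h5 fun _ _ _ => by positivity
      _ = ∑ p ∈ Ioc 2 (D + 2), ((p : ℝ) ^ 2)⁻¹ := sum_congr rfl fun _ _ => one_div _
      _ ≤ ((2 : ℕ) : ℝ)⁻¹ - ((D + 2 : ℕ) : ℝ)⁻¹ := sum_Ioc_inv_sq_le_sub two_ne_zero (by omega)
      _ ≤ 1 / 2 := by
          have : (0 : ℝ) ≤ ((D + 2 : ℕ) : ℝ)⁻¹ := by positivity
          push_cast
          push_cast at this
          linarith
  have h5 : ∀ s : Finset ℕ, (∀ p ∈ s, 3 ≤ p) → 1 - ∑ p ∈ s, 1 / (p : ℝ) ^ 2 ≤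
      ∏ p ∈ s, (1 - 1 / (p : ℝ) ^ 2) ∧ ∏ p ∈ s, (1 - 1 / (p : ℝ) ^ 2) ≤ 1 ∧
        0 ≤ ∏ p ∈ s, (1 - 1 / (p : ℝ) ^ 2) := by
    intro s
    induction s using Finset.induction_on with
    | empty => intro _; simp
    | insert q s hq ih =>
      intro hs
      obtain ⟨i1, i2, i3⟩ := ih (fun p hp => hs p (mem_insert_of_mem hp))
      have hq3 : (3 : ℝ) ≤ q := by exact_mod_cast hs q (mem_insert_self q s)
      have hx0 : 0 ≤ 1 / (q : ℝ) ^ 2 := by positivity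
      have hx1 : 1 / (q : ℝ) ^ 2 ≤ 1 := by
        rw [div_le_one (by positivity)]; nlinarith
      rw [sum_insert hq, prod_insert hq]
      refine ⟨by nlinarith, by nlinarith, mul_nonneg (by linarith) i3⟩
  have h6 := (h5 _ h3).1
  unfold densD
  calc 1 / (4 * N : ℝ) = 1 / (2 * N) * (1 / 2) := by field_simp; norm_num
    _ ≤ _ := mul_le_mul_of_nonneg_left (by linarith) (by positivity)

/-! ### the multiples of large squares -/

/-- the nonzero multiples of `q²` -/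
def Mq (Y q : ℕ) : Finset ℤ :=
  (Icc 1 (Y / q ^ 2)).image (fun k : ℕ => ((q ^ 2 * k : ℕ) : ℤ)) ∪
    (Icc 1 (Y / q ^ 2)).image (fun k : ℕ => -((q ^ 2 * k : ℕ) : ℤ))

lemma card_Mq (Y q : ℕ) : ((Mq Y q).card : ℝ) ≤ 2 * Y * ((q : ℝ) ^ 2)⁻¹ := by
  have h1 : (Mq Y q).card ≤ 2 * (Y / q ^ 2) := by
    unfold Mq
    refine (card_union_le _ _).trans ?_
    have h2 : (Icc 1 (Y / q ^ 2)).card = Y / q ^ 2 := by simp
    have h3 := card_image_le (s := Icc 1 (Y / q ^ 2)) (f := fun k : ℕ => ((q ^ 2 * k : ℕ) : ℤ))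
    have h4 := card_image_le (s := Icc 1 (Y / q ^ 2)) (f := fun k : ℕ => -((q ^ 2 * k : ℕ) : ℤ))
    omega
  have h5 : ((Y / q ^ 2 : ℕ) : ℝ) ≤ (Y : ℝ) / ((q : ℝ) ^ 2) := by
    have := @Nat.cast_div_le ℝ _ _ _ Y (q ^ 2)
    push_cast at this
    exact this
  calc ((Mq Y q).card : ℝ) ≤ 2 * ((Y / q ^ 2 : ℕ) : ℝ) := by exact_mod_cast h1
    _ ≤ 2 * ((Y : ℝ) / ((q : ℝ) ^ 2)) := by linarith
    _ = _ := by rw [div_eq_mul_inv]; ring

lemma mem_Mq {Y q : ℕ} {h : ℤ} (h0 : h ≠ 0) (hY : |h| ≤ Y) (hd : ((q : ℤ) ^ 2) ∣ h) :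
    h ∈ Mq Y q := by
  have hn : q ^ 2 ∣ h.natAbs := by
    rw [← Int.natCast_dvd]; push_cast; exact hd
  obtain ⟨k, hk⟩ := hn
  have hk0 : k ≠ 0 := by
    rintro rfl
    rw [mul_zero] at hk
    exact h0 (Int.natAbs_eq_zero.1 hk)
  have hq0 : 0 < q ^ 2 := by
    rcases Nat.eq_zero_or_pos (q ^ 2) with h1 | h1
    · rw [h1, zero_mul] at hk
      exact absurd (Int.natAbs_eq_zero.1 hk) h0
    · exact h1
  have hkY : k ≤ Y / q ^ 2 := by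
    rw [Nat.le_div_iff_mul_le hq0, mul_comm, ← hk]
    have : (h.natAbs : ℤ) ≤ Y := by rw [← Int.abs_eq_natAbs]; exact hY
    exact_mod_cast this
  unfold Mq
  rw [mem_union, mem_image, mem_image]
  rcases Int.natAbs_eq h with h1 | h1
  · left
    exact ⟨k, mem_Icc.2 ⟨by omega, hkY⟩, by rw [h1, hk]⟩
  · right
    exact ⟨k, mem_Icc.2 ⟨by omega, hkY⟩, by rw [h1, hk]⟩

lemma card_bad {Y D : ℕ} (hD : 1 ≤ D) (s : Finset ℤ)
    (hs : ∀ h ∈ s, h ≠ 0 ∧ |h| ≤ Y ∧ ∃ p : ℕ, D < p ∧ ((p : ℤ) ^ 2) ∣ h) :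
    (s.card : ℝ) ≤ 2 * Y / D := by
  classical
  rcases Nat.lt_or_ge Y D with hYD | hYD
  · have h1 : s = ∅ := by
      rw [eq_empty_iff_forall_notMem]
      intro h hh
      obtain ⟨h0, hY, p, hp, hd⟩ := hs h hh
      have h2 : ((p : ℤ) ^ 2) ≤ |h| := Int.le_of_dvd (abs_pos.2 h0) ((dvd_abs _ _).2 hd)
      have h3 : (p : ℤ) ≤ (p : ℤ) ^ 2 := by nlinarith
      omega
    rw [h1, card_empty]
    push_cast
    positivity
  have h1 : s ⊆ (Ioc D Y).biUnion (Mq Y) := by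
    intro h hh
    obtain ⟨h0, hY, p, hp, hd⟩ := hs h hh
    rw [mem_biUnion]
    refine ⟨p, ?_, mem_Mq h0 hY hd⟩
    rw [mem_Ioc]
    refine ⟨hp, ?_⟩
    have h2 : ((p : ℤ) ^ 2) ≤ |h| := Int.le_of_dvd (abs_pos.2 h0) ((dvd_abs _ _).2 hd)
    have h3 : (p : ℤ) ≤ (p : ℤ) ^ 2 := by nlinarith
    omega
  have hD0 : (0 : ℝ) < D := by exact_mod_cast hD
  calc (s.card : ℝ) ≤ (((Ioc D Y).biUnion (Mq Y)).card : ℝ) := by exact_mod_cast card_le_card h1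
    _ ≤ ((∑ q ∈ Ioc D Y, (Mq Y q).card : ℕ) : ℝ) := by exact_mod_cast card_biUnion_le
    _ = ∑ q ∈ Ioc D Y, ((Mq Y q).card : ℝ) := by push_cast; rfl
    _ ≤ ∑ q ∈ Ioc D Y, 2 * Y * ((q : ℝ) ^ 2)⁻¹ := sum_le_sum fun q _ => card_Mq Y q
    _ = 2 * Y * ∑ q ∈ Ioc D Y, ((q : ℝ) ^ 2)⁻¹ := by rw [mul_sum]
    _ ≤ 2 * Y * ((D : ℝ)⁻¹ - (Y : ℝ)⁻¹) := by
        apply mul_le_mul_of_nonneg_left _ (by positivity)
        exact sum_Ioc_inv_sq_le_sub (by omega) hYD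
    _ ≤ 2 * Y * (D : ℝ)⁻¹ := by
        apply mul_le_mul_of_nonneg_left _ (by positivity)
        have : (0 : ℝ) ≤ (Y : ℝ)⁻¹ := by positivity
        linarith
    _ = 2 * Y / D := by rw [div_eq_mul_inv]

/-! ### the classes -/

lemma mem_Cl {σ : ℤ} {N Y : ℕ} {m : ℤ} : m ∈ Cl σ N Y ↔
    ((-(Y : ℤ) ≤ m ∧ m ≤ Y) ∧ Squarefree m) ∧ Y < 2 * m.natAbs ∧ m.sign = σ ∧ m % (N : ℤ) = 1 := by
  classical
  unfold Cl sqZ
  rw [mem_filter, mem_filter, mem_Icc]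

lemma mem_clsD {σ : ℤ} {N D Y : ℕ} {h : ℤ} : h ∈ clsD N D σ Y ↔ (-(Y : ℤ) ≤ h ∧ h ≤ Y) ∧
    (Y : ℤ) < 2 * |h| ∧ h.sign = σ ∧ h % (N : ℤ) = 1 ∧
    ∀ p : ℕ, p.Prime → p ≤ D → ¬ p ∣ N → ¬ ((p : ℤ) ^ 2 ∣ h) := by
  classical
  unfold clsD
  rw [mem_filter, mem_Icc]

lemma Cl_subset (σ : ℤ) (N D Y : ℕ) : Cl σ N Y ⊆ clsD N D σ Y := by
  intro m hm
  rw [mem_Cl] at hm
  obtain ⟨⟨h1, h2⟩, h3, h4, h5⟩ := hm
  rw [mem_clsD]
  refine ⟨h1, ?_, h4, h5, ?_⟩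
  · rw [Int.abs_eq_natAbs]
    exact_mod_cast h3
  · intro p hp _ _ hd
    rw [sq] at hd
    have := h2 (p : ℤ) hd
    rw [Int.isUnit_iff] at this
    have := hp.two_le
    omega

lemma diff_bad {σ : ℤ} {N D Y : ℕ} {h : ℤ} (h1 : h ∈ clsD N D σ Y)
    (h2 : h ∉ Cl σ N Y) : h ≠ 0 ∧ |h| ≤ Y ∧ ∃ p : ℕ, D < p ∧ ((p : ℤ) ^ 2) ∣ h := by
  rw [mem_clsD] at h1
  obtain ⟨h3, h4, h5, h6, h7⟩ := h1
  have h0 : h ≠ 0 := by
    rintro rfl
    rw [Int.zero_emod] at h6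
    exact absurd h6 (by norm_num)
  refine ⟨h0, abs_le.2 h3, ?_⟩
  have hns : ¬ Squarefree h := by
    intro hs
    apply h2
    rw [mem_Cl]
    refine ⟨⟨h3, hs⟩, ?_, h5, h6⟩
    rw [Int.abs_eq_natAbs] at h4
    exact_mod_cast h4
  rw [← Int.squarefree_natAbs, Nat.squarefree_iff_prime_squarefree] at hns
  push Not at hns
  obtain ⟨p, hp, hd⟩ := hns
  have hd' : ((p : ℤ) ^ 2) ∣ h := by
    rw [← Int.natCast_dvd] at hd
    push_cast at hd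
    rw [sq]; exact hd
  have hpN : ¬ p ∣ N := by
    intro hpN
    have h8 : (p : ℤ) ∣ h := (Dvd.intro_left _ (by rw [← sq])).trans hd'
    have h9 : (p : ℤ) ∣ (N : ℤ) * (h / N) := Dvd.dvd.mul_right (by exact_mod_cast hpN) _
    have h10 : (p : ℤ) ∣ 1 := by
      have e : (1 : ℤ) = h - N * (h / N) := by
        rw [← h6]
        have := Int.mul_ediv_add_emod h N
        omega
      rw [e]
      exact dvd_sub h8 h9
    have h11 : p ∣ 1 := by exact_mod_cast h10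
    exact hp.one_lt.ne' (Nat.dvd_one.1 h11)
  refine ⟨p, ?_, hd'⟩
  by_contra hle
  exact h7 p hp (by omega) hpN hd'

/-! ### the assembly -/

variable [Crv]

/-- the exchange of summations (helper147) -/
def StSwap : Prop := ∀ (N D : ℕ), 1 < N → 2 ∣ N → ∀ σ : ℤ, (σ = 1 ∨ σ = -1) → ∀ ε κ : ℝ, 0 < ε →
  ε ≤ 1 → 0 < κ → ∃ Y₀ : ℕ, ∀ Y : ℕ, Y₀ ≤ Y → ∀ (A : Finset ℕ) (m : ℕ → ℝ),
    (∀ a ∈ A, Good a ∧ (a : ℝ) ≤ Real.exp (ε * Real.log Y / 64)) →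
    ∑ a ∈ A, |m a| ≤ Real.exp (ε * Real.log Y / 64) →
    |∑ h ∈ clsD N D σ Y, (∑ a ∈ A, m a * chi h a) * Fw Y (hmain ε Y) h -
      densD N D * Y * ∑ a ∈ A, m a * ∑' n : ℕ, bet (cfY Y (hmain ε Y)) n * rhoN N D (a * n)| ≤
      κ * Y

/-- **Module F**, from its parts -/
theorem pfFirst_of (hMV : StMainVal) (hSw : StSwap) (hWin : StWin) : StFirst := by
  intro C₀ c₀ η hC₀ hc₀ hη hη1 σ N hσ hN h8 hbd
  obtain ⟨c₁, y₀, hc₁, hy₀, hNy, hmv⟩ := hMV C₀ c₀ η hC₀ hc₀ hη hη1 N hN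
  have hN2 : 2 ∣ N := Dvd.dvd.trans ⟨4, by norm_num⟩ h8
  have hN1 : 1 < N := lt_of_lt_of_le (by norm_num) (Nat.le_of_dvd hN h8)
  have hN0 : (0 : ℝ) < N := by exact_mod_cast hN
  refine ⟨c₁ / (8 * N), y₀, by positivity, hy₀, ?_⟩
  intro θ η₁ hθ hθ1 h12 hη₁ hη₁'
  obtain ⟨z₁, hz₁, h1⟩ := hmv θ η₁ hθ hθ1 hη₁ hη₁'
  obtain ⟨z₂, hz₂, h2⟩ := second hWin hC₀ hc₀ hη hη1 hy₀ hθ hθ1 h12 hη₁ hη₁'
  have hz0' : 0 < (1 / (256 * C₀)) ^ (2 / η₁) := Real.rpow_pos_of_pos (by positivity) _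
  have hexp : 0 < Real.exp (-(1 / θ)) := Real.exp_pos _
  refine ⟨min (min z₁ z₂) (min (Real.exp (-(1 / θ))) (min 1 ((1 / (256 * C₀)) ^ (2 / η₁)))),
    by positivity, fun z hz hzz => ?_⟩
  have hzz1 : z ≤ z₁ := hzz.trans ((min_le_left _ _).trans (min_le_left _ _))
  have hzz2 : z ≤ z₂ := hzz.trans ((min_le_left _ _).trans (min_le_right _ _))
  have hzz3 : z ≤ Real.exp (-(1 / θ)) := hzz.trans ((min_le_right _ _).trans (min_le_left _ _))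
  have hzz4 : z ≤ 1 :=
    hzz.trans ((min_le_right _ _).trans ((min_le_right _ _).trans (min_le_left _ _)))
  have hzz5 : z ≤ (1 / (256 * C₀)) ^ (2 / η₁) :=
    hzz.trans ((min_le_right _ _).trans ((min_le_right _ _).trans (min_le_right _ _)))
  obtain ⟨K, hK, Y₂, h2z⟩ := h2 z hz hzz2
  set ε := z ^ (1 - η₁) with hε
  have hε0 : 0 < ε := Real.rpow_pos_of_pos hz _
  have hε1 : ε ≤ 1 := Real.rpow_le_one hz.le hzz4 (by linarith)
  set κ := c₁ / (16 * N) with hκ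
  have hκ0 : 0 < κ := by positivity
  -- the choice of `D`
  obtain ⟨D, hD⟩ := exists_nat_ge (max y₀ (2 * K / κ ^ 2))
  have hDy : y₀ ≤ D := (le_max_left _ _).trans hD
  have hDK : 2 * K / κ ^ 2 ≤ D := (le_max_right _ _).trans hD
  have hD1 : 1 ≤ D := by
    have : (2 : ℝ) ≤ D := hy₀.trans hDy
    have : 2 ≤ D := by exact_mod_cast this
    omega
  have hD0 : (0 : ℝ) < D := by exact_mod_cast hD1
  obtain ⟨Y₁, h1z⟩ := h1 z hz hzz1 D hDy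
  obtain ⟨Y₃, h3z⟩ := hSw N D hN1 hN2 σ hσ ε κ hε0 hε1 hκ0
  refine ⟨max (max Y₁ Y₂) (max Y₃ 1), fun Y S c hY hblk => ?_⟩
  have hYY₁ : Y₁ ≤ Y := ((le_max_left _ _).trans (le_max_left _ _)).trans hY
  have hYY₂ : Y₂ ≤ Y := ((le_max_right _ _).trans (le_max_left _ _)).trans hY
  have hYY₃ : Y₃ ≤ Y := ((le_max_left _ _).trans (le_max_right _ _)).trans hY
  have hYY₄ : 1 ≤ Y := ((le_max_right _ _).trans (le_max_right _ _)).trans hY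
  have hY0 : (0 : ℝ) ≤ Y := Nat.cast_nonneg Y
  have hL0 : 0 ≤ Real.log Y := Real.log_nonneg (by exact_mod_cast hYY₄)
  -- the expansion of the mollifier
  obtain ⟨A, m, hA1, hA2, hA3⟩ := moll (by linarith : (0 : ℝ) ≤ C₀) hz hL0 hblk
  have hlen : len C₀ η θ z (Real.log Y) ≤ ε * Real.log Y / 64 :=
    len_le hC₀ hη hη1 hθ hθ1 h12 hη₁ hz hzz3 hzz5 hL0
  have hexpl := Real.exp_le_exp.2 hlen
  have hmn := h1z Y S c hYY₁ hblk A m (fun a ha => (hA1 a ha).1.ne_zero) hA3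
  have hswap := h3z Y hYY₃ A m (fun a ha => ⟨(hA1 a ha).1, (hA1 a ha).2.trans hexpl⟩)
    (hA2.trans hexpl)
  have hsec := h2z Y S c hYY₂ hblk
  set F : ℤ → ℝ := fun k => Mh S c 0 (nb θ z (Real.log Y) + 1) k * Fw Y (hmain ε Y) k with hF
  have hMh : ∀ h : ℤ, Mh S c 0 (nb θ z (Real.log Y) + 1) h = ∑ a ∈ A, m a * chi h a := by
    intro h
    unfold Mh
    rw [← hA3 (chi h) (cm_chi h), ← Finset.range_eq_Ico]
  have hsum : ∑ h ∈ clsD N D σ Y, (∑ a ∈ A, m a * chi h a) * Fw Y (hmain ε Y) h =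
      ∑ h ∈ clsD N D σ Y, F h := by
    apply sum_congr rfl
    intro h _
    simp only [hF]
    rw [hMh]
  rw [hsum] at hswap
  -- the elements which are not squarefree
  have hsdiff : ∑ h ∈ clsD N D σ Y, F h = ∑ h ∈ Cl σ N Y, F h + ∑ h ∈ clsD N D σ Y \ Cl σ N Y, F h := by
    rw [add_comm]
    exact (sum_sdiff (Cl_subset σ N D Y)).symm
  have hbad : |∑ h ∈ clsD N D σ Y \ Cl σ N Y, F h| ≤ κ * Y := by
    have h4 : ((clsD N D σ Y \ Cl σ N Y).card : ℝ) ≤ 2 * Y / D := by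
      apply card_bad hD1
      intro h hh
      rw [mem_sdiff] at hh
      exact diff_bad hh.1 hh.2
    have h5 : ∑ h ∈ clsD N D σ Y \ Cl σ N Y, F h ^ 2 ≤ K * Y := by
      refine le_trans (sum_le_sum_of_subset_of_nonneg ?_ fun _ _ _ => sq_nonneg _) hsec
      intro h hh
      rw [mem_sdiff, mem_clsD] at hh
      rw [mem_Icc]
      exact hh.1.1
    have h6 : (∑ h ∈ clsD N D σ Y \ Cl σ N Y, F h) ^ 2 ≤ (κ * Y) ^ 2 := by
      calc (∑ h ∈ clsD N D σ Y \ Cl σ N Y, F h) ^ 2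
          ≤ ((clsD N D σ Y \ Cl σ N Y).card : ℝ) * ∑ h ∈ clsD N D σ Y \ Cl σ N Y, F h ^ 2 :=
            sq_sum_le_card_mul_sum_sq
        _ ≤ (2 * Y / D) * (K * Y) :=
            mul_le_mul h4 h5 (sum_nonneg fun _ _ => sq_nonneg _) (by positivity)
        _ = (2 * K / D) * Y ^ 2 := by ring
        _ ≤ κ ^ 2 * Y ^ 2 := by
            apply mul_le_mul_of_nonneg_right _ (sq_nonneg _)
            rw [div_le_iff₀ hD0]
            rw [div_le_iff₀ (by positivity)] at hDK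
            linarith
        _ = (κ * Y) ^ 2 := by ring
    exact abs_le_of_sq_le_sq h6 (by positivity)
  have hd := densD_ge D hN hN2
  set V := ∑ a ∈ A, m a * ∑' n : ℕ, bet (cfY Y (hmain ε Y)) n * rhoN N D (a * n) with hV
  have h7 : c₁ / (4 * N) * Y ≤ densD N D * Y * V := by
    calc c₁ / (4 * N) * Y = 1 / (4 * N) * Y * c₁ := by ring
      _ ≤ densD N D * Y * V :=
          mul_le_mul (mul_le_mul_of_nonneg_right hd hY0) hmn hc₁.le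
            (mul_nonneg (le_trans (by positivity) hd) hY0)
  have h8' := (abs_le.1 hswap).1
  have h9 := (abs_le.1 hbad).2
  have h10 : c₁ / (4 * N) * Y = c₁ / (8 * N) * Y + 2 * (κ * Y) := by
    rw [hκ]; field_simp; norm_num
  linarith

end P004E.F
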