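import Vale.Agent.P004E.H628.F3
import Vale.Agent.P004E.H147.Swap

/-!
# P004E, module F (part 4): `StFirst` from the main value and the windows
-/

namespace P004E.F

open P004G

variable [Crv]

theorem pfSwap : StSwap := fun N D h1 h2 _ hσ _ _ h3 h4 h5 => P004E.H147.swap N D h1 h2 hσ h3 h4 h5

/-- **Module F** -/
theorem pfFirst (hMV : P004E.H156.StMainVal) (hWin : StWin) : StFirst :=
  pfFirst_of hMV pfSwap hWin

end P004E.F
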