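import Mathlib

/-!
# P004E: sums over lattice points of angular functions, with square root errors
-/

open Real Set

namespace P004
namespace Lat

/-! ### averaging -/

lemma summ {f : ℤ × ℤ → ℂ} (h : (Function.support f).Finite) : Summable f :=
  summable_of_hasFiniteSupport h

lemma supp_add {f : ℤ × ℤ → ℂ} (h : (Function.support f).Finite) (v : ℤ × ℤ) :
    (Function.support (fun z => f (z + v))).Finite := by
  have h1 : Function.support (fun z => f (z + v)) = (fun z => z + v) ⁻¹' (Function.support f) := by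
    ext z; simp
  rw [h1]
  exact h.preimage (fun a _ b _ hab => add_right_cancel hab)

lemma supp_diff {f : ℤ × ℤ → ℂ} (h : (Function.support f).Finite) (v : ℤ × ℤ) :
    (Function.support (fun z => ‖f (z + v) - f z‖)).Finite := by
  apply ((supp_add h v).union h).subset
  intro z hz
  rw [Function.mem_support, norm_ne_zero_iff] at hz
  by_contra hn
  rw [mem_union, not_or, Function.notMem_support, Function.notMem_support] at hn
  rw [hn.1, hn.2, sub_zero] at hz
  exact hz rfl

/-- the variation of `f` in the direction `v` -/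
noncomputable def vr (f : ℤ × ℤ → ℂ) (v : ℤ × ℤ) : ℝ := ∑' z, ‖f (z + v) - f z‖

lemma vr_add {f : ℤ × ℤ → ℂ} (h : (Function.support f).Finite) (v w : ℤ × ℤ) :
    vr f (v + w) ≤ vr f v + vr f w := by
  unfold vr
  have h1 : ∑' z, ‖f (z + v) - f z‖ = ∑' z, ‖f (z + w + v) - f (z + w)‖ :=
    ((Equiv.addRight w).tsum_eq (fun z => ‖f (z + v) - f z‖)).symm
  have s1 : Summable (fun z => ‖f (z + w + v) - f (z + w)‖) :=
    (Equiv.addRight w).summable_iff.2 (summable_of_hasFiniteSupport (supp_diff h v))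
  rw [h1, ← s1.tsum_add (summable_of_hasFiniteSupport (supp_diff h w))]
  apply Summable.tsum_le_tsum
  · intro z
    have e : z + (v + w) = z + w + v := by abel
    rw [e]
    calc ‖f (z + w + v) - f z‖ = ‖(f (z + w + v) - f (z + w)) + (f (z + w) - f z)‖ := by
          congr 1; ring
      _ ≤ _ := norm_add_le _ _
  · exact summable_of_hasFiniteSupport (supp_diff h _)
  · exact s1.add (summable_of_hasFiniteSupport (supp_diff h w))

lemma vr_nat {f : ℤ × ℤ → ℂ} (h : (Function.support f).Finite) {V : ℝ}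
    (h1 : vr f (1, 0) ≤ V) (h2 : vr f (0, 1) ≤ V) (a b : ℕ) :
    vr f ((a : ℤ), (b : ℤ)) ≤ (a + b) * V := by
  have h0 : vr f (0, 0) = 0 := by
    unfold vr
    rw [← tsum_zero (α := ℝ) (β := ℤ × ℤ)]
    congr 1
    ext z
    rw [show ((0, 0) : ℤ × ℤ) = 0 from rfl, add_zero, sub_self, norm_zero]
  have hb : vr f (0, (b : ℤ)) ≤ b * V := by
    induction b with
    | zero => simp [h0]
    | succ b ih =>
      have e : ((0 : ℤ), ((b + 1 : ℕ) : ℤ)) = (0, (b : ℤ)) + (0, 1) := by
        ext <;> simp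
      rw [e]
      refine (vr_add h _ _).trans ?_
      push_cast
      linarith
  induction a with
  | zero => simpa using hb
  | succ a ih =>
    have e : (((a + 1 : ℕ) : ℤ), (b : ℤ)) = ((a : ℤ), (b : ℤ)) + (1, 0) := by
      ext <;> simp
    rw [e]
    refine (vr_add h _ _).trans ?_
    push_cast
    linarith

/-- averaging of a periodic weight -/
theorem avg {M : ℕ} [NeZero M] (G : ZMod M × ZMod M → ℂ) (hG : ∀ v, ‖G v‖ ≤ 1)
    {f : ℤ × ℤ → ℂ} (h : (Function.support f).Finite) {V : ℝ}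
    (h1 : vr f (1, 0) ≤ V) (h2 : vr f (0, 1) ≤ V) :
    ‖∑' z : ℤ × ℤ, G ((z.1 : ZMod M), (z.2 : ZMod M)) * f z -
      ((M : ℂ) ^ 2)⁻¹ * (∑ v, G v) * ∑' z : ℤ × ℤ, f z‖ ≤ 2 * M * V := by
  have hM : (M : ℂ) ≠ 0 := by exact_mod_cast NeZero.ne M
  have hV : 0 ≤ V := le_trans (tsum_nonneg fun _ => norm_nonneg _) h1
  set c : ℤ × ℤ → ZMod M × ZMod M := fun z => ((z.1 : ZMod M), (z.2 : ZMod M)) with hc
  set r : ZMod M × ZMod M → ℤ × ℤ := fun v => ((v.1.val : ℤ), (v.2.val : ℤ)) with hr
  have hcr : ∀ z v, c (z + r v) = c z + v := by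
    intro z v
    apply Prod.ext
    · simp only [hc, hr, Prod.fst_add]
      rw [Int.cast_add, Int.cast_natCast, ZMod.natCast_zmod_val]
    · simp only [hc, hr, Prod.snd_add]
      rw [Int.cast_add, Int.cast_natCast, ZMod.natCast_zmod_val]
  set S := ∑' z : ℤ × ℤ, G (c z) * f z with hS
  have hsf := summ h
  have hsG : ∀ v, Summable (fun z => G (c z + v) * f z) := by
    intro v
    apply summable_of_hasFiniteSupport
    exact h.subset (fun z hz => by
      rw [Function.mem_support] at hz ⊢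
      exact right_ne_zero_of_mul hz)
  have hsG' : ∀ v, Summable (fun z => G (c z + v) * f (z + r v)) := by
    intro v
    apply summable_of_hasFiniteSupport
    exact (supp_add h (r v)).subset (fun z hz => by
      rw [Function.mem_support] at hz ⊢
      exact right_ne_zero_of_mul hz)
  have e1 : ∀ v, S = ∑' z, G (c z + v) * f (z + r v) := by
    intro v
    rw [hS, ← (Equiv.addRight (r v)).tsum_eq]
    apply tsum_congr
    intro z
    rw [Equiv.coe_addRight, hcr]
  have e2 : ∀ v, ‖S - ∑' z, G (c z + v) * f z‖ ≤ 2 * M * V := by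
    intro v
    rw [e1 v, ← (hsG' v).tsum_sub (hsG v)]
    have hsd : Summable (fun z => ‖f (z + r v) - f z‖) :=
      summable_of_hasFiniteSupport (supp_diff h _)
    have hle : ∀ z, ‖G (c z + v) * f (z + r v) - G (c z + v) * f z‖ ≤ ‖f (z + r v) - f z‖ := by
      intro z
      rw [← mul_sub, norm_mul]
      calc ‖G (c z + v)‖ * ‖f (z + r v) - f z‖ ≤ 1 * ‖f (z + r v) - f z‖ :=
            mul_le_mul_of_nonneg_right (hG _) (norm_nonneg _)
        _ = _ := one_mul _
    refine (tsum_of_norm_bounded hsd.hasSum hle).trans ?_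
    have h3 := vr_nat h h1 h2 v.1.val v.2.val
    refine h3.trans ?_
    apply mul_le_mul_of_nonneg_right _ hV
    have h4 : (v.1.val : ℝ) ≤ M := by exact_mod_cast (ZMod.val_lt v.1).le
    have h5 : (v.2.val : ℝ) ≤ M := by exact_mod_cast (ZMod.val_lt v.2).le
    linarith
  have e3 : ∑ v, ∑' z, G (c z + v) * f z = (∑ v, G v) * ∑' z, f z := by
    rw [← Summable.tsum_finsetSum (fun v _ => hsG v), ← tsum_mul_left]
    apply tsum_congr
    intro z
    rw [← Finset.sum_mul]
    congr 1
    exact Equiv.sum_comp (Equiv.addLeft (c z)) G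
  have hcard : (Fintype.card (ZMod M × ZMod M) : ℂ) = (M : ℂ) ^ 2 := by
    rw [Fintype.card_prod, ZMod.card]
    push_cast; ring
  have e4 : S - ((M : ℂ) ^ 2)⁻¹ * (∑ v, G v) * ∑' z, f z =
      ((M : ℂ) ^ 2)⁻¹ * ∑ v : ZMod M × ZMod M, (S - ∑' z, G (c z + v) * f z) := by
    rw [Finset.sum_sub_distrib, e3, Finset.sum_const, Finset.card_univ, nsmul_eq_mul, hcard]
    field_simp
  rw [e4, norm_mul, norm_inv, norm_pow, Complex.norm_natCast]
  have hM' : (0 : ℝ) < (M : ℝ) ^ 2 := by
    have : (0 : ℝ) < M := by exact_mod_cast Nat.pos_of_ne_zero (NeZero.ne M)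
    positivity
  rw [inv_mul_le_iff₀ hM']
  refine (norm_sum_le _ _).trans ?_
  refine (Finset.sum_le_sum (fun v _ => e2 v)).trans ?_
  rw [Finset.sum_const, Finset.card_univ, nsmul_eq_mul]
  apply le_of_eq
  have : (Fintype.card (ZMod M × ZMod M) : ℝ) = (M : ℝ) ^ 2 := by exact_mod_cast hcard
  rw [this]

end Lat
end P004
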