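import Vale.Agent.P004E.H628.Lat

/-!
# P004E: the variation of angular functions on discs
-/

open Real Set

namespace P004
namespace Lat

/-- the angular function `z / |z|` at `z = a + b i` -/
noncomputable def ev (a b : ℝ) : ℂ := ⟨a / √(a ^ 2 + b ^ 2), b / √(a ^ 2 + b ^ 2)⟩

lemma normSq_ev (a b : ℝ) : Complex.normSq (ev a b) = (a ^ 2 + b ^ 2) / (a ^ 2 + b ^ 2) := by
  unfold ev
  rw [Complex.normSq_mk]
  have h : √(a ^ 2 + b ^ 2) * √(a ^ 2 + b ^ 2) = a ^ 2 + b ^ 2 :=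
    Real.mul_self_sqrt (by positivity)
  rw [div_mul_div_comm, div_mul_div_comm, h, ← add_div]
  congr 1
  ring

lemma norm_ev_le (a b : ℝ) : ‖ev a b‖ ≤ 1 := by
  rw [Complex.norm_def, normSq_ev, Real.sqrt_le_one]
  exact div_self_le_one _

lemma norm_ev {a b : ℝ} (h : a ^ 2 + b ^ 2 ≠ 0) : ‖ev a b‖ = 1 := by
  rw [Complex.norm_def, normSq_ev, div_self h, Real.sqrt_one]

/-- the angular function to the power `k` on the disc of radius `√N` -/
noncomputable def D (k N : ℕ) (z : ℤ × ℤ) : ℂ :=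
  if z.1 ^ 2 + z.2 ^ 2 ≤ N then ev z.1 z.2 ^ k else 0

lemma pow_sub_le {x y : ℂ} (hx : ‖x‖ ≤ 1) (hy : ‖y‖ ≤ 1) (k : ℕ) : ‖x ^ k - y ^ k‖ ≤ k * ‖x - y‖ := by
  induction k with
  | zero => simp
  | succ k ih =>
    have e : x ^ (k + 1) - y ^ (k + 1) = x * (x ^ k - y ^ k) + (x - y) * y ^ k := by ring
    rw [e]
    refine (norm_add_le _ _).trans ?_
    rw [norm_mul, norm_mul, norm_pow]
    have h1 : ‖x‖ * ‖x ^ k - y ^ k‖ ≤ 1 * (k * ‖x - y‖) :=
      mul_le_mul hx ih (norm_nonneg _) zero_le_one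
    have h2 : ‖x - y‖ * ‖y‖ ^ k ≤ ‖x - y‖ * 1 :=
      mul_le_mul_of_nonneg_left (pow_le_one₀ (norm_nonneg _) hy) (norm_nonneg _)
    push_cast
    linarith

/-! ### one row -/

lemma mono_re (b : ℝ) {s t : ℝ} (hs : 0 ≤ s) (hst : s ≤ t) :
    s / √(s ^ 2 + b ^ 2) ≤ t / √(t ^ 2 + b ^ 2) := by
  rcases hs.eq_or_lt with h0 | h0
  · rw [← h0, zero_div]
    have : 0 ≤ t := hs.trans hst
    positivity
  · have h1 : 0 < √(s ^ 2 + b ^ 2) := Real.sqrt_pos.2 (by positivity)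
    have ht : 0 < t := h0.trans_le hst
    have h2 : 0 < √(t ^ 2 + b ^ 2) := Real.sqrt_pos.2 (by positivity)
    rw [div_le_div_iff₀ h1 h2]
    have e1 : s * √(t ^ 2 + b ^ 2) = √(s ^ 2 * (t ^ 2 + b ^ 2)) := by
      rw [Real.sqrt_mul (sq_nonneg s), Real.sqrt_sq hs]
    have e2 : t * √(s ^ 2 + b ^ 2) = √(t ^ 2 * (s ^ 2 + b ^ 2)) := by
      rw [Real.sqrt_mul (sq_nonneg t), Real.sqrt_sq ht.le]
    rw [e1, e2]
    apply Real.sqrt_le_sqrt
    have : s ^ 2 ≤ t ^ 2 := by nlinarith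
    nlinarith [sq_nonneg b, mul_le_mul_of_nonneg_right this (sq_nonneg b)]

lemma anti_im (b : ℝ) {s t : ℝ} (hs : 0 ≤ s) (hst : s ≤ t) :
    |b| / √(t ^ 2 + b ^ 2) ≤ |b| / √(s ^ 2 + b ^ 2) := by
  rcases eq_or_ne b 0 with rfl | hb
  · simp
  · have h1 : 0 < √(s ^ 2 + b ^ 2) := Real.sqrt_pos.2 (by positivity)
    apply div_le_div_of_nonneg_left (abs_nonneg _) h1
    apply Real.sqrt_le_sqrt
    have : s ^ 2 ≤ t ^ 2 := by nlinarith
    linarith

lemma tele_mono {f : ℕ → ℝ} (hf : ∀ n, f n ≤ f (n + 1)) (h0 : 0 ≤ f 0) (h1 : ∀ n, f n ≤ 1)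
    (K : ℕ) : ∑ i ∈ Finset.range K, |f (i + 1) - f i| ≤ 1 := by
  have e : ∑ i ∈ Finset.range K, |f (i + 1) - f i| = ∑ i ∈ Finset.range K, (f (i + 1) - f i) :=
    Finset.sum_congr rfl fun i _ => abs_of_nonneg (by linarith [hf i])
  rw [e, Finset.sum_range_sub]
  linarith [h1 K]

lemma tele_anti {f : ℕ → ℝ} (hf : ∀ n, f (n + 1) ≤ f n) (h0 : f 0 ≤ 1) (h1 : ∀ n, 0 ≤ f n)
    (K : ℕ) : ∑ i ∈ Finset.range K, |f (i + 1) - f i| ≤ 1 := by
  have e : ∑ i ∈ Finset.range K, |f (i + 1) - f i| = ∑ i ∈ Finset.range K, (f i - f (i + 1)) :=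
    Finset.sum_congr rfl fun i _ => by rw [abs_sub_comm]; exact abs_of_nonneg (by linarith [hf i])
  rw [e, Finset.sum_range_sub']
  linarith [h1 K]

lemma abs_div_sqrt_le (s b : ℝ) : |b| / √(s ^ 2 + b ^ 2) ≤ 1 := by
  apply div_le_one_of_le₀ _ (Real.sqrt_nonneg _)
  rw [← Real.sqrt_sq_eq_abs]
  exact Real.sqrt_le_sqrt (by nlinarith [sq_nonneg s])

lemma half_row (k N : ℕ) (b : ℤ) (K : ℕ) :
    ∑ i ∈ Finset.range K, ‖D k N (((i : ℕ) : ℤ) + 1, b) - D k N ((i : ℤ), b)‖ ≤ 2 * k + 1 := by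
  classical
  set g : ℕ → ℂ := fun i => ev i b with hg
  set I : ℕ → ℝ := fun i => if ((i : ℤ)) ^ 2 + b ^ 2 ≤ N then 1 else 0 with hI
  have hD : ∀ i : ℕ, D k N ((i : ℤ), b) = (I i : ℂ) * g i ^ k := by
    intro i
    unfold D
    simp only [hI, hg, Int.cast_natCast]
    split_ifs <;> simp
  have hg1 : ∀ i, ‖g i‖ ≤ 1 := fun i => norm_ev_le _ _
  have hI0 : ∀ i, 0 ≤ I i := by intro i; simp only [hI]; split_ifs <;> norm_num
  have hI1 : ∀ i, I i ≤ 1 := by intro i; simp only [hI]; split_ifs <;> norm_num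
  have hstep : ∀ i : ℕ, ‖D k N (((i : ℕ) : ℤ) + 1, b) - D k N ((i : ℤ), b)‖ ≤
      |I (i + 1) - I i| + k * (|(g (i + 1)).re - (g i).re| +
        |(|(b : ℝ)| / √(((i + 1 : ℕ) : ℝ) ^ 2 + (b : ℝ) ^ 2)) -
          |(b : ℝ)| / √((i : ℝ) ^ 2 + (b : ℝ) ^ 2)|) := by
    intro i
    have e0 : (((i : ℕ) : ℤ) + 1, b) = (((i + 1 : ℕ) : ℤ), b) := by push_cast; rfl
    rw [e0, hD, hD]
    have e1 : (I (i + 1) : ℂ) * g (i + 1) ^ k - (I i : ℂ) * g i ^ k =
        ((I (i + 1) - I i : ℝ) : ℂ) * g (i + 1) ^ k + (I i : ℂ) * (g (i + 1) ^ k - g i ^ k) := by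
      push_cast; ring
    rw [e1]
    refine (norm_add_le _ _).trans ?_
    apply add_le_add
    · rw [norm_mul, Complex.norm_real, norm_pow, Real.norm_eq_abs]
      exact mul_le_of_le_one_right (abs_nonneg _) (pow_le_one₀ (norm_nonneg _) (hg1 _))
    · rw [norm_mul, Complex.norm_real, Real.norm_of_nonneg (hI0 i)]
      calc I i * ‖g (i + 1) ^ k - g i ^ k‖ ≤ 1 * (k * ‖g (i + 1) - g i‖) :=
            mul_le_mul (hI1 i) (pow_sub_le (hg1 _) (hg1 _) k) (norm_nonneg _) zero_le_one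
        _ ≤ _ := by
            rw [one_mul]
            apply mul_le_mul_of_nonneg_left _ (Nat.cast_nonneg k)
            refine (Complex.norm_le_abs_re_add_abs_im _).trans ?_
            rw [Complex.sub_re, Complex.sub_im]
            apply add_le_add le_rfl
            apply le_of_eq
            simp only [hg, ev]
            rcases le_or_gt 0 (b : ℝ) with hb | hb
            · rw [abs_of_nonneg hb]
            · rw [abs_of_neg hb, neg_div, neg_div, ← neg_sub']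
              rw [abs_neg]
  refine (Finset.sum_le_sum fun i _ => hstep i).trans ?_
  rw [Finset.sum_add_distrib, ← Finset.mul_sum, Finset.sum_add_distrib]
  have t1 : ∑ i ∈ Finset.range K, |I (i + 1) - I i| ≤ 1 := by
    apply tele_anti _ (hI1 0) hI0
    intro n
    simp only [hI]
    split_ifs with h1 h2
    · exact le_rfl
    · exfalso
      apply h2
      push_cast at h1
      have h0 : (0 : ℤ) ≤ n := Int.natCast_nonneg n
      nlinarith
    · norm_num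
    · exact le_rfl
  have t2 : ∑ i ∈ Finset.range K, |(g (i + 1)).re - (g i).re| ≤ 1 := by
    apply tele_mono (f := fun i => (g i).re)
    · intro n
      simp only [hg, ev]
      apply mono_re _ (Nat.cast_nonneg n)
      push_cast; linarith
    · simp only [hg, ev]; simp
    · intro n
      exact (Complex.re_le_norm _).trans (hg1 n)
  have t3 : ∑ i ∈ Finset.range K, |(|(b : ℝ)| / √(((i + 1 : ℕ) : ℝ) ^ 2 + (b : ℝ) ^ 2)) -
          |(b : ℝ)| / √((i : ℝ) ^ 2 + (b : ℝ) ^ 2)| ≤ 1 := by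
    apply tele_anti (f := fun i : ℕ => |(b : ℝ)| / √((i : ℝ) ^ 2 + (b : ℝ) ^ 2))
    · intro n
      apply anti_im _ (Nat.cast_nonneg n)
      push_cast; linarith
    · exact abs_div_sqrt_le _ _
    · intro n; positivity
  have hk : (0 : ℝ) ≤ k := Nat.cast_nonneg k
  nlinarith [mul_le_mul_of_nonneg_left (add_le_add t2 t3) hk]

/-! ### symmetries -/

lemma ev_neg (a b : ℝ) : ev (-a) b = -(starRingEnd ℂ (ev a b)) := by
  unfold ev
  apply Complex.ext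
  · simp; ring
  · simp

lemma ev_swap (a b : ℝ) : ev b a = Complex.I * starRingEnd ℂ (ev a b) := by
  unfold ev
  rw [add_comm (b ^ 2)]
  apply Complex.ext <;> simp

lemma ev_rot (a b : ℝ) : ev (-b) a = Complex.I * ev a b := by
  unfold ev
  rw [neg_sq, add_comm (b ^ 2)]
  apply Complex.ext
  · simp; ring
  · simp

lemma D_neg (k N : ℕ) (a b : ℤ) : D k N (-a, b) = (-1) ^ k * starRingEnd ℂ (D k N (a, b)) := by
  unfold D
  simp only [neg_sq, Int.cast_neg, ev_neg]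
  split_ifs
  · rw [map_pow, neg_pow]
  · simp

lemma D_swap (k N : ℕ) (a b : ℤ) :
    D k N (b, a) = Complex.I ^ k * starRingEnd ℂ (D k N (a, b)) := by
  unfold D
  simp only [add_comm (b ^ 2) (a ^ 2), ev_swap (a : ℝ) (b : ℝ)]
  split_ifs
  · rw [map_pow, mul_pow]
  · simp

lemma D_rot (k N : ℕ) (a b : ℤ) : D k N (-b, a) = Complex.I ^ k * D k N (a, b) := by
  unfold D
  simp only [neg_sq, Int.cast_neg, add_comm (b ^ 2) (a ^ 2), ev_rot (a : ℝ) (b : ℝ)]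
  split_ifs
  · rw [mul_pow]
  · simp

lemma D_supp (k N : ℕ) {z : ℤ × ℤ} (h : D k N z ≠ 0) :
    (-(Nat.sqrt N : ℤ) ≤ z.1 ∧ z.1 ≤ Nat.sqrt N) ∧ (-(Nat.sqrt N : ℤ) ≤ z.2 ∧ z.2 ≤ Nat.sqrt N) := by
  unfold D at h
  have h1 : z.1 ^ 2 + z.2 ^ 2 ≤ (N : ℤ) := by
    by_contra hn
    rw [if_neg hn] at h
    exact h rfl
  have key : ∀ a : ℤ, a ^ 2 ≤ (N : ℤ) → -(Nat.sqrt N : ℤ) ≤ a ∧ a ≤ Nat.sqrt N := by
    intro a ha
    have h2 : a.natAbs ≤ Nat.sqrt N := by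
      rw [Nat.le_sqrt']
      zify
      rw [sq_abs]
      exact ha
    omega
  exact ⟨key _ (by nlinarith [sq_nonneg z.2]), key _ (by nlinarith [sq_nonneg z.1])⟩

lemma D_fin (k N : ℕ) : (Function.support (D k N)).Finite := by
  apply ((Finset.Icc (-(Nat.sqrt N : ℤ)) (Nat.sqrt N) ×ˢ
    Finset.Icc (-(Nat.sqrt N : ℤ)) (Nat.sqrt N) : Finset (ℤ × ℤ))).finite_toSet.subset
  intro z hz
  rw [Finset.mem_coe, Finset.mem_product, Finset.mem_Icc, Finset.mem_Icc]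
  exact D_supp k N hz

lemma row_summ (k N : ℕ) (b : ℤ) :
    Summable (fun a : ℤ => ‖D k N (a + 1, b) - D k N (a, b)‖) := by
  have h1 : Summable (fun z : ℤ × ℤ => ‖D k N (z + (1, 0)) - D k N z‖) :=
    summable_of_hasFiniteSupport (supp_diff (D_fin k N) (1, 0))
  have h2 : Summable ((fun z : ℤ × ℤ => ‖D k N (z + (1, 0)) - D k N z‖) ∘ (fun a : ℤ => (a, b))) :=
    h1.comp_injective (fun x y h => (Prod.ext_iff.1 h).1)
  refine h2.congr (fun a => ?_)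
  simp only [Function.comp_apply, Prod.mk_add_mk, add_zero]

lemma row_e (k N : ℕ) (b : ℤ) (n : ℕ) :
    ‖D k N (-((n : ℤ) + 1) + 1, b) - D k N (-((n : ℤ) + 1), b)‖ =
      ‖D k N ((n : ℤ) + 1, b) - D k N ((n : ℤ), b)‖ := by
  have e1 : -((n : ℤ) + 1) + 1 = -(n : ℤ) := by ring
  rw [e1, D_neg, D_neg, ← mul_sub, ← map_sub, norm_mul, norm_pow, norm_neg, norm_one, one_pow,
    one_mul, RCLike.norm_conj, norm_sub_rev]

lemma row (k N : ℕ) (b : ℤ) :
    ∑' a : ℤ, ‖D k N (a + 1, b) - D k N (a, b)‖ ≤ 2 * (2 * k + 1) := by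
  have hsZ := row_summ k N b
  have hs1 : Summable (fun n : ℕ => ‖D k N ((n : ℤ) + 1, b) - D k N ((n : ℤ), b)‖) :=
    hsZ.comp_injective (i := fun n : ℕ => (n : ℤ)) Nat.cast_injective
  have hs2 : Summable (fun n : ℕ => ‖D k N (-((n : ℤ) + 1) + 1, b) - D k N (-((n : ℤ) + 1), b)‖) :=
    hs1.congr fun n => (row_e k N b n).symm
  have h3 := tsum_of_nat_of_neg_add_one (f := fun a : ℤ => ‖D k N (a + 1, b) - D k N (a, b)‖) hs1 hs2
  rw [h3, tsum_congr (row_e k N b), ← two_mul]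
  apply mul_le_mul_of_nonneg_left _ (by norm_num)
  apply Real.tsum_le_of_sum_range_le (fun _ => norm_nonneg _)
  intro K
  exact half_row k N b K

theorem vr_D (k N : ℕ) : vr (D k N) (1, 0) ≤ (2 * Nat.sqrt N + 1) * (2 * (2 * k + 1)) := by
  unfold vr
  have hs : Summable (fun z : ℤ × ℤ => ‖D k N (z + (1, 0)) - D k N z‖) :=
    summable_of_hasFiniteSupport (supp_diff (D_fin k N) (1, 0))
  have e1 : ∀ z : ℤ × ℤ, ‖D k N ((Equiv.prodComm ℤ ℤ) z + (1, 0)) - D k N ((Equiv.prodComm ℤ ℤ) z)‖ =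
      ‖D k N (z.2 + 1, z.1) - D k N (z.2, z.1)‖ := by
    rintro ⟨a, b⟩
    simp only [Equiv.prodComm_apply, Prod.swap_prod_mk, Prod.mk_add_mk, add_zero]
  have hs' : Summable (fun z : ℤ × ℤ => ‖D k N (z.2 + 1, z.1) - D k N (z.2, z.1)‖) := by
    have h1 : Summable ((fun z : ℤ × ℤ => ‖D k N (z + (1, 0)) - D k N z‖) ∘ (Equiv.prodComm ℤ ℤ)) :=
      (Equiv.prodComm ℤ ℤ).summable_iff.2 hs
    exact h1.congr e1
  rw [← (Equiv.prodComm ℤ ℤ).tsum_eq, tsum_congr e1, hs'.tsum_prod]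
  have h0 : ∀ b ∉ Finset.Icc (-(Nat.sqrt N : ℤ)) (Nat.sqrt N),
      ∑' a : ℤ, ‖D k N (a + 1, b) - D k N (a, b)‖ = 0 := by
    intro b hb
    have hz : ∀ a : ℤ, D k N (a, b) = 0 := by
      intro a
      by_contra h
      exact hb (Finset.mem_Icc.2 (D_supp k N h).2)
    have h1 : ∀ a : ℤ, ‖D k N (a + 1, b) - D k N (a, b)‖ = 0 := by
      intro a
      rw [hz, hz, sub_zero, norm_zero]
    rw [tsum_congr h1, tsum_zero]
  rw [tsum_eq_sum (s := Finset.Icc (-(Nat.sqrt N : ℤ)) (Nat.sqrt N)) (fun b hb => h0 b hb)]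
  refine (Finset.sum_le_sum fun b _ => row k N b).trans ?_
  rw [Finset.sum_const, nsmul_eq_mul, Int.card_Icc]
  apply mul_le_mul_of_nonneg_right _ (by positivity)
  have : ((Nat.sqrt N : ℤ) + 1 - -(Nat.sqrt N : ℤ)).toNat = 2 * Nat.sqrt N + 1 := by omega
  rw [this]
  push_cast
  exact le_rfl

theorem vr_D' (k N : ℕ) : vr (D k N) (0, 1) ≤ (2 * Nat.sqrt N + 1) * (2 * (2 * k + 1)) := by
  refine le_trans (le_of_eq ?_) (vr_D k N)
  unfold vr
  rw [← (Equiv.prodComm ℤ ℤ).tsum_eq]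
  apply tsum_congr
  rintro ⟨a, b⟩
  simp only [Equiv.prodComm_apply, Prod.swap_prod_mk, Prod.mk_add_mk, add_zero]
  rw [D_swap k N (a + 1) b, D_swap k N a b, ← mul_sub, ← map_sub, norm_mul, norm_pow, Complex.norm_I, one_pow,
    one_mul, RCLike.norm_conj]

lemma tsum_D_two (N : ℕ) : ∑' z, D 2 N z = 0 := by
  let e : ℤ × ℤ ≃ ℤ × ℤ :=
    { toFun := fun z => (-z.2, z.1)
      invFun := fun z => (z.2, -z.1)
      left_inv := fun z => by simp
      right_inv := fun z => by simp }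
  have h1 : ∑' z, D 2 N z = ∑' z, D 2 N (e z) := (e.tsum_eq _).symm
  have h2 : ∀ z, D 2 N (e z) = -D 2 N z := by
    rintro ⟨a, b⟩
    change D 2 N (-b, a) = _
    rw [D_rot, Complex.I_sq]
    ring
  rw [tsum_congr h2, tsum_neg] at h1
  have h3 : (2 : ℂ) * ∑' z, D 2 N z = 0 := by linear_combination h1
  simpa using h3

end Lat
end P004
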