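import Vale.Agent.P004E.H628.Lat2

/-!
# P004E: the fourth power of the angular function
-/

open Real Set

namespace P004
namespace Lat

lemma ev_eq (a b : ℝ) : ev a b = ((⟨a, b⟩ : ℂ)) / ((√(a ^ 2 + b ^ 2) : ℝ) : ℂ) := by
  unfold ev
  apply Complex.ext
  · rw [Complex.div_ofReal_re]
  · rw [Complex.div_ofReal_im]

lemma ev_mul (a b c d : ℝ) : ev (a * c - b * d) (a * d + b * c) = ev a b * ev c d := by
  rw [ev_eq, ev_eq, ev_eq, div_mul_div_comm, ← Complex.ofReal_mul,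
    ← Real.sqrt_mul (by positivity)]
  congr 1
  · congr 3
    ring

lemma sqrt5 : ((√(5 : ℝ) : ℝ) : ℂ) ^ 4 = 25 := by
  have h : (√(5 : ℝ)) ^ 4 = 25 := by
    have : (√(5 : ℝ)) ^ 2 = 5 := Real.sq_sqrt (by norm_num)
    calc (√(5 : ℝ)) ^ 4 = ((√(5 : ℝ)) ^ 2) ^ 2 := by ring
      _ = 25 := by rw [this]; norm_num
  exact_mod_cast h

lemma ev21 : ev 2 1 ^ 4 = (-7 + 24 * Complex.I) / 25 := by
  have e : (⟨2, 1⟩ : ℂ) = 2 + Complex.I := by apply Complex.ext <;> simp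
  have h2 : Complex.I ^ 2 = -1 := Complex.I_sq
  rw [ev_eq, div_pow, show (2 : ℝ) ^ 2 + 1 ^ 2 = 5 by norm_num, sqrt5, e]
  congr 1
  linear_combination (24 + 8 * Complex.I + Complex.I ^ 2 - 1) * h2

lemma ev21' : ev 2 (-1) ^ 4 = (-7 - 24 * Complex.I) / 25 := by
  have e : (⟨2, -1⟩ : ℂ) = 2 - Complex.I := by apply Complex.ext <;> simp
  have h2 : Complex.I ^ 2 = -1 := Complex.I_sq
  rw [ev_eq, div_pow, show (2 : ℝ) ^ 2 + (-1) ^ 2 = 5 by norm_num, sqrt5, e]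
  congr 1
  linear_combination (24 - 8 * Complex.I + Complex.I ^ 2 - 1) * h2

/-- multiplication by `2 + i` -/
def L1 (w : ℤ × ℤ) : ℤ × ℤ := (2 * w.1 - w.2, w.1 + 2 * w.2)

/-- multiplication by `2 - i` -/
def L2 (w : ℤ × ℤ) : ℤ × ℤ := (2 * w.1 + w.2, 2 * w.2 - w.1)

lemma D_L1 (N : ℕ) (w : ℤ × ℤ) : D 4 (5 * N) (L1 w) = ev 2 1 ^ 4 * D 4 N w := by
  unfold D L1
  have e : (2 * w.1 - w.2) ^ 2 + (w.1 + 2 * w.2) ^ 2 = 5 * (w.1 ^ 2 + w.2 ^ 2) := by ring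
  have h : (2 * w.1 - w.2) ^ 2 + (w.1 + 2 * w.2) ^ 2 ≤ ((5 * N : ℕ) : ℤ) ↔
      w.1 ^ 2 + w.2 ^ 2 ≤ (N : ℤ) := by
    rw [e]; push_cast; constructor <;> intro h <;> linarith
  simp only [h]
  split_ifs
  · rw [← mul_pow, ← ev_mul]
    push_cast
    congr 2 <;> ring
  · rw [mul_zero]

lemma D_L2 (N : ℕ) (w : ℤ × ℤ) : D 4 (5 * N) (L2 w) = ev 2 (-1) ^ 4 * D 4 N w := by
  unfold D L2
  have e : (2 * w.1 + w.2) ^ 2 + (2 * w.2 - w.1) ^ 2 = 5 * (w.1 ^ 2 + w.2 ^ 2) := by ring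
  have h : (2 * w.1 + w.2) ^ 2 + (2 * w.2 - w.1) ^ 2 ≤ ((5 * N : ℕ) : ℤ) ↔
      w.1 ^ 2 + w.2 ^ 2 ≤ (N : ℤ) := by
    rw [e]; push_cast; constructor <;> intro h <;> linarith
  simp only [h]
  split_ifs
  · rw [← mul_pow, ← ev_mul]
    push_cast
    congr 2 <;> ring
  · rw [mul_zero]

lemma L1_inj : Function.Injective L1 := by
  rintro ⟨a, b⟩ ⟨c, d⟩ h
  simp only [L1, Prod.mk.injEq] at h
  ext <;> simp only <;> omega

lemma L2_inj : Function.Injective L2 := by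
  rintro ⟨a, b⟩ ⟨c, d⟩ h
  simp only [L2, Prod.mk.injEq] at h
  ext <;> simp only <;> omega

/-- the weights -/
noncomputable def G1 (v : ZMod 5 × ZMod 5) : ℂ := if 2 * v.1 + v.2 = 0 then 1 else 0

/-- the weights -/
noncomputable def G2 (v : ZMod 5 × ZMod 5) : ℂ := if 2 * v.1 - v.2 = 0 then 1 else 0

lemma sum_G1 : ∑ v, G1 v = 5 := by
  unfold G1
  rw [← Finset.sum_filter, Finset.sum_const]
  have : (Finset.univ.filter (fun v : ZMod 5 × ZMod 5 => 2 * v.1 + v.2 = 0)).card = 5 := by decide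
  rw [this]; norm_num

lemma sum_G2 : ∑ v, G2 v = 5 := by
  unfold G2
  rw [← Finset.sum_filter, Finset.sum_const]
  have : (Finset.univ.filter (fun v : ZMod 5 × ZMod 5 => 2 * v.1 - v.2 = 0)).card = 5 := by decide
  rw [this]; norm_num

lemma tsum_G1 (N : ℕ) : ∑' z : ℤ × ℤ, G1 ((z.1 : ZMod 5), (z.2 : ZMod 5)) * D 4 (5 * N) z =
    ev 2 1 ^ 4 * ∑' z, D 4 N z := by
  rw [← tsum_mul_left, ← tsum_congr (D_L1 N)]
  have h : ∑' w, (fun z : ℤ × ℤ => G1 ((z.1 : ZMod 5), (z.2 : ZMod 5)) * D 4 (5 * N) z) (L1 w) =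
      ∑' z : ℤ × ℤ, G1 ((z.1 : ZMod 5), (z.2 : ZMod 5)) * D 4 (5 * N) z := by
    refine L1_inj.tsum_eq (f := fun z : ℤ × ℤ => G1 ((z.1 : ZMod 5), (z.2 : ZMod 5)) * D 4 (5 * N) z) ?_
    rintro ⟨x, y⟩ hz
    rw [Function.mem_support] at hz
    have h1 := left_ne_zero_of_mul hz
    unfold G1 at h1
    have h2 : (2 : ZMod 5) * (x : ZMod 5) + (y : ZMod 5) = 0 := by
      by_contra h
      rw [if_neg h] at h1
      exact h1 rfl
    have h3 : (5 : ℤ) ∣ 2 * x + y := by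
      have : ((2 * x + y : ℤ) : ZMod 5) = 0 := by push_cast; exact h2
      exact (ZMod.intCast_zmod_eq_zero_iff_dvd _ 5).1 this
    obtain ⟨a, ha⟩ := h3
    refine ⟨(a, 2 * a - x), ?_⟩
    unfold L1
    ext <;> simp only <;> omega
  rw [← h]
  apply tsum_congr
  intro w
  simp only
  have h1 : G1 (((L1 w).1 : ZMod 5), ((L1 w).2 : ZMod 5)) = 1 := by
    unfold G1
    rw [if_pos]
    have : ((2 * (L1 w).1 + (L1 w).2 : ℤ) : ZMod 5) = 0 := by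
      rw [ZMod.intCast_zmod_eq_zero_iff_dvd]
      unfold L1
      exact ⟨w.1, by push_cast; ring⟩
    push_cast at this
    exact this
  rw [h1, one_mul]

lemma tsum_G2 (N : ℕ) : ∑' z : ℤ × ℤ, G2 ((z.1 : ZMod 5), (z.2 : ZMod 5)) * D 4 (5 * N) z =
    ev 2 (-1) ^ 4 * ∑' z, D 4 N z := by
  rw [← tsum_mul_left, ← tsum_congr (D_L2 N)]
  have h : ∑' w, (fun z : ℤ × ℤ => G2 ((z.1 : ZMod 5), (z.2 : ZMod 5)) * D 4 (5 * N) z) (L2 w) =
      ∑' z : ℤ × ℤ, G2 ((z.1 : ZMod 5), (z.2 : ZMod 5)) * D 4 (5 * N) z := by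
    refine L2_inj.tsum_eq (f := fun z : ℤ × ℤ => G2 ((z.1 : ZMod 5), (z.2 : ZMod 5)) * D 4 (5 * N) z) ?_
    rintro ⟨x, y⟩ hz
    rw [Function.mem_support] at hz
    have h1 := left_ne_zero_of_mul hz
    unfold G2 at h1
    have h2 : (2 : ZMod 5) * (x : ZMod 5) - (y : ZMod 5) = 0 := by
      by_contra h
      rw [if_neg h] at h1
      exact h1 rfl
    have h3 : (5 : ℤ) ∣ 2 * x - y := by
      have : ((2 * x - y : ℤ) : ZMod 5) = 0 := by push_cast; exact h2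
      exact (ZMod.intCast_zmod_eq_zero_iff_dvd _ 5).1 this
    obtain ⟨a, ha⟩ := h3
    refine ⟨(a, x - 2 * a), ?_⟩
    unfold L2
    ext <;> simp only <;> omega
  rw [← h]
  apply tsum_congr
  intro w
  simp only
  have h1 : G2 (((L2 w).1 : ZMod 5), ((L2 w).2 : ZMod 5)) = 1 := by
    unfold G2
    rw [if_pos]
    have : ((2 * (L2 w).1 - (L2 w).2 : ℤ) : ZMod 5) = 0 := by
      rw [ZMod.intCast_zmod_eq_zero_iff_dvd]
      unfold L2
      exact ⟨w.1, by push_cast; ring⟩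
    push_cast at this
    exact this
  rw [h1, one_mul]

lemma tsum_D_four (N : ℕ) : ‖∑' z, D 4 N z‖ ≤ 200 * (2 * Nat.sqrt (5 * N) + 1) := by
  set U := ∑' z, D 4 N z with hU
  have : NeZero 5 := ⟨by norm_num⟩
  have h1 := avg G1 (fun v => by unfold G1; split_ifs <;> simp) (D_fin 4 (5 * N))
    (vr_D 4 (5 * N)) (vr_D' 4 (5 * N))
  have h2 := avg G2 (fun v => by unfold G2; split_ifs <;> simp) (D_fin 4 (5 * N))
    (vr_D 4 (5 * N)) (vr_D' 4 (5 * N))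
  rw [tsum_G1, sum_G1] at h1
  rw [tsum_G2, sum_G2] at h2
  rw [← hU] at h1 h2
  set W := (((5 : ℕ) : ℂ) ^ 2)⁻¹ * 5 * ∑' z, D 4 (5 * N) z
  have h3 : ‖(ev 2 1 ^ 4 - ev 2 (-1) ^ 4) * U‖ ≤
      2 * (2 * 5 * ((2 * Nat.sqrt (5 * N) + 1) * (2 * (2 * 4 + 1)))) := by
    have e : (ev 2 1 ^ 4 - ev 2 (-1) ^ 4) * U = (ev 2 1 ^ 4 * U - W) - (ev 2 (-1) ^ 4 * U - W) := by
      ring
    rw [e]
    refine (norm_sub_le _ _).trans ?_
    push_cast at h1 h2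
    linarith
  have h4 : ev 2 1 ^ 4 - ev 2 (-1) ^ 4 = ((48 / 25 : ℝ) : ℂ) * Complex.I := by
    rw [ev21, ev21']; push_cast; ring
  rw [h4, norm_mul, norm_mul, Complex.norm_I, mul_one, Complex.norm_real] at h3
  norm_num at h3
  have h0 := norm_nonneg U
  linarith

end Lat
end P004
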