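import Vale.Agent.P004E.H628.PS2

/-!
# P004E: multiplicative functions with given values at prime powers
-/

open Real Finset

namespace P004
namespace PSav

open ArithmeticFunction

/-- the multiplicative function with the values `g p k` at the prime powers -/
noncomputable def mf (g : ℕ → ℕ → ℝ) : ArithmeticFunction ℝ :=
  ⟨fun n => if n = 0 then 0 else n.factorization.prod g, by simp⟩

lemma mf_apply (g : ℕ → ℕ → ℝ) {n : ℕ} (hn : n ≠ 0) : mf g n = n.factorization.prod g := by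
  change (if n = 0 then 0 else n.factorization.prod g) = _
  rw [if_neg hn]

lemma mf_mult (g : ℕ → ℕ → ℝ) : IsMultiplicative (mf g) := by
  constructor
  · rw [mf_apply g one_ne_zero]; simp
  · intro m n h
    rcases eq_or_ne m 0 with rfl | hm
    · rw [zero_mul, ArithmeticFunction.map_zero, zero_mul]
    rcases eq_or_ne n 0 with rfl | hn
    · rw [mul_zero, ArithmeticFunction.map_zero, mul_zero]
    rw [mf_apply g hm, mf_apply g hn, mf_apply g (mul_ne_zero hm hn), Nat.factorization_mul hm hn,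
      Finsupp.prod_add_index_of_disjoint]
    rw [Nat.support_factorization, Nat.support_factorization]
    exact h.disjoint_primeFactors

lemma mf_pp {g : ℕ → ℕ → ℝ} (hg : ∀ p, g p 0 = 1) {p : ℕ} (hp : p.Prime) (k : ℕ) :
    mf g (p ^ k) = g p k := by
  rw [mf_apply g (pow_ne_zero _ hp.ne_zero), hp.factorization_pow, Finsupp.prod_single_index (hg p)]

lemma conv_pp (f g : ArithmeticFunction ℝ) {p : ℕ} (hp : p.Prime) (k : ℕ) :
    (f * g) (p ^ k) = ∑ x ∈ antidiagonal k, f (p ^ x.1) * g (p ^ x.2) := by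
  rw [mul_apply, Nat.sum_divisorsAntidiagonal (fun a b => f a * g b),
    Nat.sum_divisors_prime_pow hp, Finset.Nat.sum_antidiagonal_eq_sum_range_succ_mk]
  apply sum_congr rfl
  intro i hi
  rw [mem_range] at hi
  rw [Nat.pow_div (by omega) hp.pos]

/-- the power series of an arithmetic function at a prime -/
noncomputable def ser (f : ArithmeticFunction ℝ) (p : ℕ) : PowerSeries ℝ :=
  PowerSeries.mk fun k => f (p ^ k)

lemma ser_mul (f g : ArithmeticFunction ℝ) {p : ℕ} (hp : p.Prime) :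
    ser (f * g) p = ser f p * ser g p := by
  ext k
  rw [PowerSeries.coeff_mul]
  unfold ser
  rw [PowerSeries.coeff_mk, conv_pp f g hp]
  apply sum_congr rfl
  intro x _
  rw [PowerSeries.coeff_mk, PowerSeries.coeff_mk]

open PowerSeries in
lemma ser_one {f : ArithmeticFunction ℝ} {p : ℕ} {c : ℝ} (h0 : f (p ^ 0) = 1)
    (h : ∀ k, f (p ^ (k + 1)) = c * f (p ^ k)) : ser f p * (1 - C c * X) = 1 := by
  ext k
  have e : ser f p * (1 - C c * X) = ser f p - C c * (ser f p * X) := by ring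
  rw [e, map_sub, coeff_C_mul, coeff_one]
  cases k with
  | zero =>
    rw [pow_zero] at h0
    simp [ser, h0]
  | succ k =>
    rw [coeff_succ_mul_X]
    unfold ser
    rw [coeff_mk, coeff_mk, h, if_neg (Nat.succ_ne_zero k)]
    ring

open PowerSeries in
lemma ser_two {f : ArithmeticFunction ℝ} {p : ℕ} {r c : ℝ} (h0 : f (p ^ 0) = 1)
    (h1 : f (p ^ 1) = r) (h : ∀ k, f (p ^ (k + 2)) = r * f (p ^ (k + 1)) - c * f (p ^ k)) :
    ser f p * (1 - C r * X + C c * X ^ 2) = 1 := by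
  ext k
  have e : ser f p * (1 - C r * X + C c * X ^ 2) =
      ser f p - C r * (ser f p * X) + C c * (ser f p * X * X) := by ring
  rw [e, map_add, map_sub, coeff_C_mul, coeff_C_mul, coeff_one]
  rcases k with _ | _ | k
  · rw [pow_zero] at h0
    simp [ser, h0]
  · rw [coeff_succ_mul_X, coeff_succ_mul_X, coeff_zero_mul_X]
    unfold ser
    rw [coeff_mk, coeff_mk, h0, zero_add, h1]
    simp
  · rw [coeff_succ_mul_X, coeff_succ_mul_X, coeff_succ_mul_X]
    unfold ser
    rw [coeff_mk, coeff_mk, coeff_mk]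
    have := h k
    rw [show k + 1 + 1 = k + 2 from rfl, this, if_neg (by omega)]
    ring

/-- the local values of the correction -/
def gh (c r : ℕ → ℝ) (p : ℕ) : ℕ → ℝ
  | 0 => 1
  | 1 => 0
  | 2 => c p + c p * r p - (c p + r p) ^ 2
  | 3 => -(c p) ^ 2 + (c p + r p) * (c p + c p * r p)
  | 4 => -((c p) ^ 2 * (c p + r p))
  | _ => 0

/-- the local values of the squarefree function -/
def gb (c r : ℕ → ℝ) (p : ℕ) : ℕ → ℝ
  | 0 => 1
  | 1 => c p + r p
  | _ => 0

open PowerSeries in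
lemma ser_gh (c r : ℕ → ℝ) {p : ℕ} (hp : p.Prime) : ser (mf (gh c r)) p =
    (1 + C (c p + r p) * X) * ((1 - C (c p) * X) * (1 - C (r p) * X + C (c p) * X ^ 2)) := by
  have e : (1 + C (c p + r p) * X) * ((1 - C (c p) * X) * (1 - C (r p) * X + C (c p) * X ^ 2)) =
      1 + C (c p + c p * r p - (c p + r p) ^ 2) * X ^ 2 +
        C (-(c p) ^ 2 + (c p + r p) * (c p + c p * r p)) * X ^ 3 +
        C (-((c p) ^ 2 * (c p + r p))) * X ^ 4 := by
    simp only [map_add, map_sub, map_mul, map_neg, map_pow]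
    ring
  rw [e]
  ext k
  rw [map_add, map_add, map_add, coeff_C_mul, coeff_C_mul, coeff_C_mul, coeff_X_pow, coeff_X_pow,
    coeff_X_pow, coeff_one]
  unfold ser
  rw [coeff_mk, mf_pp (fun _ => rfl) hp]
  rcases k with _ | _ | _ | _ | _ | k <;> simp [gh]

open PowerSeries in
lemma ser_gb (c r : ℕ → ℝ) {p : ℕ} (hp : p.Prime) : ser (mf (gb c r)) p = 1 + C (c p + r p) * X := by
  ext k
  rw [map_add, coeff_C_mul, coeff_X, coeff_one]
  unfold ser
  rw [coeff_mk, mf_pp (fun _ => rfl) hp]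
  rcases k with _ | _ | k <;> simp [gb]

/-- the identity between the Dirichlet series -/
theorem mf_eq {c r : ℕ → ℝ} {f g : ArithmeticFunction ℝ} (hf : IsMultiplicative f)
    (hg : IsMultiplicative g) (hf1 : ∀ p, p.Prime → ∀ k, f (p ^ (k + 1)) = c p * f (p ^ k))
    (hg1 : ∀ p, p.Prime → g p = r p) (hg2 : ∀ p, p.Prime → ∀ k,
      g (p ^ (k + 2)) = r p * g (p ^ (k + 1)) - c p * g (p ^ k)) :
    mf (gb c r) = f * g * mf (gh c r) := by
  rw [IsMultiplicative.eq_iff_eq_on_prime_powers _ (mf_mult _) _ ((hf.mul hg).mul (mf_mult _))]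
  intro p k hp
  have h1 : ser f p * (1 - PowerSeries.C (c p) * PowerSeries.X) = 1 :=
    ser_one (by rw [pow_zero]; exact hf.1) (hf1 p hp)
  have h2 : ser g p * (1 - PowerSeries.C (r p) * PowerSeries.X +
      PowerSeries.C (c p) * PowerSeries.X ^ 2) = 1 :=
    ser_two (by rw [pow_zero]; exact hg.1) (by rw [pow_one]; exact hg1 p hp) (hg2 p hp)
  have h3 : ser (mf (gb c r)) p = ser (f * g * mf (gh c r)) p := by
    rw [ser_mul _ _ hp, ser_mul _ _ hp, ser_gh c r hp, ser_gb c r hp]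
    calc 1 + PowerSeries.C (c p + r p) * PowerSeries.X
        = (ser f p * (1 - PowerSeries.C (c p) * PowerSeries.X)) *
          (ser g p * (1 - PowerSeries.C (r p) * PowerSeries.X +
            PowerSeries.C (c p) * PowerSeries.X ^ 2)) *
          (1 + PowerSeries.C (c p + r p) * PowerSeries.X) := by rw [h1, h2]; ring
      _ = _ := by ring
  have h4 := congrArg (PowerSeries.coeff k) h3
  unfold ser at h4
  rwa [PowerSeries.coeff_mk, PowerSeries.coeff_mk] at h4

/-! ### the correction is absolutely convergent -/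

lemma gh_le {c r : ℕ → ℝ} (hc : ∀ p, |c p| ≤ 1) (hr : ∀ p, |r p| ≤ 2) (p k : ℕ) :
    |gh c r p k| ≤ ((k : ℝ) + 1) ^ 3 := by
  have h1 := abs_le.1 (hc p)
  have h2 := abs_le.1 (hr p)
  have hcc : |c p * r p| ≤ 2 := by
    rw [abs_mul]
    nlinarith [hc p, hr p, abs_nonneg (c p), abs_nonneg (r p)]
  have h3 := abs_le.1 hcc
  have hs : |c p + r p| ≤ 3 := by
    rw [abs_le]; constructor <;> linarith [h1.1, h1.2, h2.1, h2.2]
  have hs2 : (c p + r p) ^ 2 ≤ 9 := by
    rw [← sq_abs]; nlinarith [abs_nonneg (c p + r p)]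
  have hc2 : (c p) ^ 2 ≤ 1 := by rw [← sq_abs]; nlinarith [abs_nonneg (c p), hc p]
  have ht : |c p + c p * r p| ≤ 3 := by
    rw [abs_le]; constructor <;> linarith [h1.1, h1.2, h3.1, h3.2]
  have hst : |(c p + r p) * (c p + c p * r p)| ≤ 9 := by
    rw [abs_mul]
    nlinarith [abs_nonneg (c p + r p), abs_nonneg (c p + c p * r p)]
  have hst' := abs_le.1 hst
  have hcs : |(c p) ^ 2 * (c p + r p)| ≤ 3 := by
    rw [abs_mul, abs_of_nonneg (sq_nonneg _)]
    nlinarith [abs_nonneg (c p + r p), sq_nonneg (c p)]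
  have hcs' := abs_le.1 hcs
  rcases k with _ | _ | _ | _ | _ | k
  · simp [gh]
  · simp only [gh, abs_zero]; positivity
  · simp only [gh]
    norm_num
    rw [abs_le]
    constructor <;> nlinarith [sq_nonneg (c p + r p), h1.1, h1.2, h3.1, h3.2]
  · simp only [gh]
    norm_num
    rw [abs_le]
    constructor <;> nlinarith [sq_nonneg (c p)]
  · simp only [gh]
    rw [abs_neg]
    refine hcs.trans ?_
    norm_num
  · simp only [gh, abs_zero]; positivity

lemma mf_gh_le {c r : ℕ → ℝ} (hc : ∀ p, |c p| ≤ 1) (hr : ∀ p, |r p| ≤ 2) {n : ℕ} (hn : n ≠ 0) :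
    |mf (gh c r) n| ≤ dv n ^ 3 := by
  rw [mf_apply _ hn, Finsupp.prod, abs_prod]
  unfold dv
  rw [Nat.card_divisors hn]
  push_cast
  rw [← prod_pow]
  apply prod_le_prod
  · intro p _; exact abs_nonneg _
  · intro p _; exact gh_le hc hr p _

lemma mf_gh_zero {c r : ℕ → ℝ} {n : ℕ} (hn : ¬ Powerful n) : mf (gh c r) n = 0 := by
  rcases eq_or_ne n 0 with rfl | h0
  · exact ArithmeticFunction.map_zero
  have h1 : ∃ p : ℕ, p.Prime ∧ p ∣ n ∧ ¬ p ^ 2 ∣ n := by
    by_contra h
    push Not at h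
    exact hn ⟨h0, h⟩
  obtain ⟨p, hp, hpn, hp2⟩ := h1
  rw [mf_apply _ h0, Finsupp.prod]
  apply prod_eq_zero (i := p)
  · rw [Nat.support_factorization, Nat.mem_primeFactors]
    exact ⟨hp, hpn, h0⟩
  · have h2 : n.factorization p = 1 := by
      have h3 : 1 ≤ n.factorization p := (hp.dvd_iff_one_le_factorization h0).1 hpn
      have h4 : ¬ 2 ≤ n.factorization p := fun h => hp2 ((hp.pow_dvd_iff_le_factorization h0).2 h)
      omega
    rw [h2]; rfl

theorem gh_summable {c r : ℕ → ℝ} (hc : ∀ p, |c p| ≤ 1) (hr : ∀ p, |r p| ≤ 2) :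
    Summable (fun n : ℕ => |mf (gh c r) n| * (n : ℝ) ^ (-(3 / 4) : ℝ)) := by
  obtain ⟨C, hC, K, h⟩ := pfDiv.2 3
  have h1 := h (1 / 4) (by norm_num) (by norm_num)
  have h2 : Summable (fun r : {r : ℕ // Powerful r} => dv r ^ 3 * ((r : ℕ) : ℝ) ^ (-1 / 2 - 1 / 4 : ℝ)) := by
    have h3 : ∑' r : {r : ℕ // Powerful r}, ENNReal.ofReal (dv r ^ 3 * ((r : ℕ) : ℝ) ^ (-1 / 2 - 1 / 4 : ℝ)) ≠
      ⊤ := ne_top_of_le_ne_top ENNReal.ofReal_ne_top h1
    have h4 := ENNReal.summable_toReal h3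
    refine h4.congr (fun x => ?_)
    rw [ENNReal.toReal_ofReal]
    exact mul_nonneg (pow_nonneg (Nat.cast_nonneg _) _) (Real.rpow_nonneg (Nat.cast_nonneg _) _)
  have h5 : Summable ((fun n : ℕ => |mf (gh c r) n| * (n : ℝ) ^ (-(3 / 4) : ℝ)) ∘
      (Subtype.val : {r : ℕ // Powerful r} → ℕ)) := by
    refine Summable.of_nonneg_of_le (fun x => ?_) (fun x => ?_) h2
    · exact mul_nonneg (abs_nonneg _) (Real.rpow_nonneg (Nat.cast_nonneg _) _)
    · rw [Function.comp_apply, show (-1 / 2 - 1 / 4 : ℝ) = -(3 / 4) by norm_num]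
      exact mul_le_mul_of_nonneg_right (mf_gh_le hc hr x.2.1) (Real.rpow_nonneg (Nat.cast_nonneg _) _)
  have h6 : Summable (Set.indicator {r : ℕ | Powerful r}
      (fun n : ℕ => |mf (gh c r) n| * (n : ℝ) ^ (-(3 / 4) : ℝ))) :=
    (summable_subtype_iff_indicator (f := fun n : ℕ => |mf (gh c r) n| * (n : ℝ) ^ (-(3 / 4) : ℝ))
      (s := {r : ℕ | Powerful r})).1 h5
  refine h6.congr (fun n => ?_)
  by_cases hn : Powerful n
  · rw [Set.indicator_of_mem (show n ∈ {r : ℕ | Powerful r} from hn)]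
  · rw [Set.indicator_of_notMem (show n ∉ {r : ℕ | Powerful r} from hn), mf_gh_zero hn]
    simp

end PSav
end P004
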