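import Mathlib

/-!
# P004E: Dirichlet series with power saving, and their products
-/

open Real Finset

namespace P004
namespace PSav

open ArithmeticFunction

/-- sums of small size, convergent with a power saving -/
def PS (g : ArithmeticFunction ℝ) : Prop :=
  (∀ ε : ℝ, 0 < ε → ∃ C : ℝ, ∀ N : ℕ, 1 ≤ N → ∑ n ∈ Ioc 0 N, |g n| ≤ C * (N : ℝ) ^ ε) ∧
  ∃ G C δ : ℝ, 0 < δ ∧ ∀ N : ℕ, 1 ≤ N → |∑ n ∈ Ioc 0 N, g n - G| ≤ C * (N : ℝ) ^ (-δ)

/-- absolute values -/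
def ab (f : ArithmeticFunction ℝ) : ArithmeticFunction ℝ := ⟨fun n => |f n|, by simp⟩

lemma ab_apply (f : ArithmeticFunction ℝ) (n : ℕ) : ab f n = |f n| := rfl

lemma abs_mul_le (f g : ArithmeticFunction ℝ) (n : ℕ) : |(f * g) n| ≤ (ab f * ab g) n := by
  rw [mul_apply, mul_apply]
  refine (abs_sum_le_sum_abs _ _).trans (le_of_eq ?_)
  apply sum_congr rfl
  intro x _
  rw [abs_mul]; rfl

lemma sum_abs_mul_le (f g : ArithmeticFunction ℝ) (N : ℕ) :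
    ∑ n ∈ Ioc 0 N, |(f * g) n| ≤ (∑ n ∈ Ioc 0 N, |f n|) * ∑ n ∈ Ioc 0 N, |g n| := by
  refine (sum_le_sum fun n _ => abs_mul_le f g n).trans ?_
  rw [sum_Ioc_mul_eq_sum_sum, sum_mul]
  apply sum_le_sum
  intro a ha
  rw [ab_apply]
  apply mul_le_mul_of_nonneg_left _ (abs_nonneg _)
  apply sum_le_sum_of_subset_of_nonneg
  · apply Ioc_subset_Ioc_right
    exact Nat.div_le_self _ _
  · intro i _ _
    exact abs_nonneg _

lemma hyp (f g : ArithmeticFunction ℝ) (N : ℕ) :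
    ∑ n ∈ Ioc 0 N, (f * g) n = ∑ a ∈ Ioc 0 (Nat.sqrt N), f a * ∑ b ∈ Ioc 0 (N / a), g b +
      ∑ b ∈ Ioc 0 (Nat.sqrt N), g b * (∑ a ∈ Ioc 0 (N / b), f a - ∑ a ∈ Ioc 0 (Nat.sqrt N), f a) := by
  set s := Nat.sqrt N with hs
  have hsN : s ≤ N := Nat.sqrt_le_self N
  rw [sum_Ioc_mul_eq_sum_sum]
  have h1 : ∑ n ∈ Ioc 0 N, f n * ∑ m ∈ Ioc 0 (N / n), g m =
      ∑ n ∈ Ioc 0 s, f n * ∑ m ∈ Ioc 0 (N / n), g m + ∑ n ∈ Ioc s N, f n * ∑ m ∈ Ioc 0 (N / n), g m := by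
    rw [← sum_union]
    · rw [Ioc_union_Ioc_eq_Ioc (Nat.zero_le s) hsN]
    · rw [disjoint_left]
      intro a ha hb
      rw [mem_Ioc] at ha hb
      omega
  rw [h1]
  congr 1
  have h2 : ∀ b ∈ Ioc 0 s, ∑ a ∈ Ioc 0 (N / b), f a - ∑ a ∈ Ioc 0 s, f a = ∑ a ∈ Ioc s (N / b), f a := by
    intro b hb
    rw [mem_Ioc] at hb
    have hle : s ≤ N / b := by
      rw [Nat.le_div_iff_mul_le hb.1]
      calc s * b ≤ s * s := Nat.mul_le_mul_left _ hb.2
        _ ≤ N := Nat.sqrt_le N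
    rw [sub_eq_iff_eq_add, add_comm, ← sum_union]
    · rw [Ioc_union_Ioc_eq_Ioc (Nat.zero_le s) hle]
    · rw [disjoint_left]
      intro a ha hb
      rw [mem_Ioc] at ha hb
      omega
  have h3 : ∑ b ∈ Ioc 0 s, g b * (∑ a ∈ Ioc 0 (N / b), f a - ∑ a ∈ Ioc 0 s, f a) =
      ∑ b ∈ Ioc 0 s, ∑ a ∈ Ioc s (N / b), f a * g b := by
    apply sum_congr rfl
    intro b hb
    rw [h2 b hb, mul_sum]
    exact sum_congr rfl fun a _ => mul_comm _ _
  rw [h3]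
  simp only [mul_sum]
  rw [sum_comm' (s' := fun b => Ioc s (N / b)) (t' := Ioc 0 s)]
  · intro a b
    simp only [mem_Ioc]
    constructor
    · rintro ⟨⟨h3, h4⟩, h5, h6⟩
      have ha : 0 < a := by omega
      rw [Nat.le_div_iff_mul_le ha] at h6
      have hb : b ≤ s := by
        by_contra hn
        have h7 : s + 1 ≤ b := by omega
        have h8 : (s + 1) * (s + 1) ≤ b * a := Nat.mul_le_mul h7 (by omega)
        have h10 : N < (s + 1) * (s + 1) := Nat.lt_succ_sqrt N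
        omega
      refine ⟨⟨h3, ?_⟩, h5, hb⟩
      rw [Nat.le_div_iff_mul_le h5, mul_comm]
      exact h6
    · rintro ⟨⟨h3, h4⟩, h5, h6⟩
      rw [Nat.le_div_iff_mul_le h5] at h4
      have ha : 0 < a := by omega
      refine ⟨⟨h3, ?_⟩, h5, ?_⟩
      · exact (Nat.le_mul_of_pos_right a h5).trans h4
      · rw [Nat.le_div_iff_mul_le ha, mul_comm]; exact h4

theorem PS_mul {f g : ArithmeticFunction ℝ} (hf : PS f) (hg : PS g) : PS (f * g) := by
  obtain ⟨hf1, Gf, Cf, df, hdf, hf2⟩ := hf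
  obtain ⟨hg1, Gg, Cg, dg, hdg, hg2⟩ := hg
  constructor
  · intro ε hε
    obtain ⟨C1, h1⟩ := hf1 (ε / 2) (by linarith)
    obtain ⟨C2, h2⟩ := hg1 (ε / 2) (by linarith)
    refine ⟨C1 * C2, fun N hN => ?_⟩
    have hN0 : (0 : ℝ) < N := by exact_mod_cast hN
    refine (sum_abs_mul_le f g N).trans ?_
    refine (mul_le_mul (h1 N hN) (h2 N hN) (sum_nonneg fun _ _ => abs_nonneg _)
      ((sum_nonneg fun _ _ => abs_nonneg _).trans (h1 N hN))).trans (le_of_eq ?_)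
    have e : (N : ℝ) ^ ε = (N : ℝ) ^ (ε / 2) * (N : ℝ) ^ (ε / 2) := by
      rw [← Real.rpow_add hN0]; congr 1; ring
    rw [e]; ring
  · set δ := min df dg with hδ
    have hδ0 : 0 < δ := lt_min hdf hdg
    obtain ⟨C1, h1⟩ := hf1 (δ / 2) (by linarith)
    obtain ⟨C2, h2⟩ := hg1 (δ / 2) (by linarith)
    have hCf : 0 ≤ Cf := by
      have := (abs_nonneg _).trans (hf2 1 le_rfl)
      simpa using this
    have hCg : 0 ≤ Cg := by
      have := (abs_nonneg _).trans (hg2 1 le_rfl)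
      simpa using this
    have hC1 : 0 ≤ C1 := by
      have := (sum_nonneg fun _ _ => abs_nonneg _).trans (h1 1 le_rfl)
      simpa using this
    have hC2 : 0 ≤ C2 := by
      have := (sum_nonneg fun _ _ => abs_nonneg _).trans (h2 1 le_rfl)
      simpa using this
    refine ⟨Gf * Gg, (C1 * Cg + |Gg| * Cf + C2 * (2 * Cf)) * 2 ^ (δ / 2), δ / 4, by linarith,
      fun N hN => ?_⟩
    set s := Nat.sqrt N with hs
    have hs1 : 1 ≤ s := by
      rw [hs, Nat.le_sqrt]; omega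
    have hsR : (1 : ℝ) ≤ s := by exact_mod_cast hs1
    have hs0 : (0 : ℝ) < s := by linarith
    have hN0 : (0 : ℝ) < N := by exact_mod_cast hN
    -- the size of `s`
    have hsN : (N : ℝ) ≤ (2 * s) ^ 2 := by
      have h3 : N < (s + 1) * (s + 1) := Nat.lt_succ_sqrt N
      have h4 : (N : ℝ) < (s + 1) * (s + 1) := by exact_mod_cast h3
      nlinarith
    have hpow : (s : ℝ) ^ (-(δ / 2)) ≤ 2 ^ (δ / 2) * (N : ℝ) ^ (-(δ / 4)) := by
      have h3 : (N : ℝ) ^ (δ / 4) ≤ (2 * s) ^ (δ / 2) := by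
        calc (N : ℝ) ^ (δ / 4) ≤ ((2 * (s : ℝ)) ^ 2) ^ (δ / 4) :=
              Real.rpow_le_rpow hN0.le hsN (by linarith)
          _ = (2 * s) ^ (δ / 2) := by
              rw [← Real.rpow_natCast, ← Real.rpow_mul (by positivity)]
              congr 1; push_cast; ring
      rw [Real.mul_rpow (by norm_num) hs0.le] at h3
      rw [Real.rpow_neg hs0.le, Real.rpow_neg hN0.le, ← div_eq_mul_inv, inv_eq_one_div,
        div_le_div_iff₀ (Real.rpow_pos_of_pos hs0 _) (Real.rpow_pos_of_pos hN0 _), one_mul]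
      exact h3
    have hmono : ∀ {d : ℝ} {M : ℕ}, δ ≤ d → s ≤ M → (M : ℝ) ^ (-d) ≤ (s : ℝ) ^ (-δ) := by
      intro d M hd hM
      have hM' : (s : ℝ) ≤ M := by exact_mod_cast hM
      calc (M : ℝ) ^ (-d) ≤ (s : ℝ) ^ (-d) := by
            apply Real.rpow_le_rpow_of_nonpos hs0 hM' (by linarith)
        _ ≤ (s : ℝ) ^ (-δ) := Real.rpow_le_rpow_of_exponent_le hsR (by linarith)
    have hdivs : ∀ a ∈ Ioc 0 s, s ≤ N / a := by
      intro a ha
      rw [mem_Ioc] at ha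
      rw [Nat.le_div_iff_mul_le ha.1]
      calc s * a ≤ s * s := Nat.mul_le_mul_left _ ha.2
        _ ≤ N := Nat.sqrt_le N
    have hsd : (0 : ℝ) ≤ (s : ℝ) ^ (-δ) := Real.rpow_nonneg hs0.le _
    rw [hyp]
    have e : ∑ a ∈ Ioc 0 s, f a * ∑ b ∈ Ioc 0 (N / a), g b +
      ∑ b ∈ Ioc 0 s, g b * (∑ a ∈ Ioc 0 (N / b), f a - ∑ a ∈ Ioc 0 s, f a) - Gf * Gg =
        ∑ a ∈ Ioc 0 s, f a * (∑ b ∈ Ioc 0 (N / a), g b - Gg) +
        Gg * (∑ a ∈ Ioc 0 s, f a - Gf) +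
        ∑ b ∈ Ioc 0 s, g b * (∑ a ∈ Ioc 0 (N / b), f a - ∑ a ∈ Ioc 0 s, f a) := by
      have : ∑ a ∈ Ioc 0 s, f a * (∑ b ∈ Ioc 0 (N / a), g b - Gg) =
          ∑ a ∈ Ioc 0 s, f a * ∑ b ∈ Ioc 0 (N / a), g b - (∑ a ∈ Ioc 0 s, f a) * Gg := by
        rw [sum_mul, ← sum_sub_distrib]
        exact sum_congr rfl fun _ _ => by ring
      rw [this]; ring
    rw [e]
    have b1 : |∑ a ∈ Ioc 0 s, f a * (∑ b ∈ Ioc 0 (N / a), g b - Gg)| ≤
        C1 * (s : ℝ) ^ (δ / 2) * (Cg * (s : ℝ) ^ (-δ)) := by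
      refine (abs_sum_le_sum_abs _ _).trans ?_
      calc ∑ a ∈ Ioc 0 s, |f a * (∑ b ∈ Ioc 0 (N / a), g b - Gg)|
          ≤ ∑ a ∈ Ioc 0 s, |f a| * (Cg * (s : ℝ) ^ (-δ)) := by
            apply sum_le_sum
            intro a ha
            rw [abs_mul]
            apply mul_le_mul_of_nonneg_left _ (abs_nonneg _)
            have h3 := hdivs a ha
            refine (hg2 (N / a) (hs1.trans h3)).trans ?_
            exact mul_le_mul_of_nonneg_left (hmono (min_le_right _ _) h3) hCg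
        _ = (∑ a ∈ Ioc 0 s, |f a|) * (Cg * (s : ℝ) ^ (-δ)) := (sum_mul _ _ _).symm
        _ ≤ _ := mul_le_mul_of_nonneg_right (h1 s hs1) (by positivity)
    have b2 : |Gg * (∑ a ∈ Ioc 0 s, f a - Gf)| ≤ |Gg| * (Cf * (s : ℝ) ^ (-δ)) := by
      rw [abs_mul]
      apply mul_le_mul_of_nonneg_left _ (abs_nonneg _)
      refine (hf2 s hs1).trans ?_
      exact mul_le_mul_of_nonneg_left (hmono (min_le_left _ _) le_rfl) hCf
    have b3 : |∑ b ∈ Ioc 0 s, g b * (∑ a ∈ Ioc 0 (N / b), f a - ∑ a ∈ Ioc 0 s, f a)| ≤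
        C2 * (s : ℝ) ^ (δ / 2) * (2 * Cf * (s : ℝ) ^ (-δ)) := by
      refine (abs_sum_le_sum_abs _ _).trans ?_
      calc ∑ b ∈ Ioc 0 s, |g b * (∑ a ∈ Ioc 0 (N / b), f a - ∑ a ∈ Ioc 0 s, f a)|
          ≤ ∑ b ∈ Ioc 0 s, |g b| * (2 * Cf * (s : ℝ) ^ (-δ)) := by
            apply sum_le_sum
            intro b hb
            rw [abs_mul]
            apply mul_le_mul_of_nonneg_left _ (abs_nonneg _)
            have h3 := hdivs b hb
            have h4 := (hf2 (N / b) (hs1.trans h3)).trans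
              (mul_le_mul_of_nonneg_left (hmono (min_le_left _ _) h3) hCf)
            have h5 := (hf2 s hs1).trans
              (mul_le_mul_of_nonneg_left (hmono (min_le_left _ _) le_rfl) hCf)
            have h6 : ∑ a ∈ Ioc 0 (N / b), f a - ∑ a ∈ Ioc 0 s, f a =
              (∑ a ∈ Ioc 0 (N / b), f a - Gf) - (∑ a ∈ Ioc 0 s, f a - Gf) := by ring
            rw [h6]
            refine (abs_sub _ _).trans ?_
            linarith
        _ = (∑ b ∈ Ioc 0 s, |g b|) * (2 * Cf * (s : ℝ) ^ (-δ)) := (sum_mul _ _ _).symm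
        _ ≤ _ := mul_le_mul_of_nonneg_right (h2 s hs1) (by positivity)
    have hh : (s : ℝ) ^ (-δ) ≤ (s : ℝ) ^ (-(δ / 2)) :=
      Real.rpow_le_rpow_of_exponent_le hsR (by linarith)
    have hp : (s : ℝ) ^ (δ / 2) * (s : ℝ) ^ (-δ) = (s : ℝ) ^ (-(δ / 2)) := by
      rw [← Real.rpow_add hs0]; congr 1; ring
    calc _ ≤ C1 * (s : ℝ) ^ (δ / 2) * (Cg * (s : ℝ) ^ (-δ)) + |Gg| * (Cf * (s : ℝ) ^ (-δ)) +
          C2 * (s : ℝ) ^ (δ / 2) * (2 * Cf * (s : ℝ) ^ (-δ)) := by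
          refine (abs_add_le _ _).trans ?_
          exact add_le_add ((abs_add_le _ _).trans (add_le_add b1 b2)) b3
      _ = (C1 * Cg + C2 * (2 * Cf)) * ((s : ℝ) ^ (δ / 2) * (s : ℝ) ^ (-δ)) +
          |Gg| * Cf * (s : ℝ) ^ (-δ) := by ring
      _ ≤ (C1 * Cg + C2 * (2 * Cf)) * (s : ℝ) ^ (-(δ / 2)) + |Gg| * Cf * (s : ℝ) ^ (-(δ / 2)) := by
          rw [hp]
          exact add_le_add le_rfl (mul_le_mul_of_nonneg_left hh (by positivity))
      _ = (C1 * Cg + |Gg| * Cf + C2 * (2 * Cf)) * (s : ℝ) ^ (-(δ / 2)) := by ring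
      _ ≤ (C1 * Cg + |Gg| * Cf + C2 * (2 * Cf)) * (2 ^ (δ / 2) * (N : ℝ) ^ (-(δ / 4))) :=
          mul_le_mul_of_nonneg_left hpow (by positivity)
      _ = _ := by ring

end PSav
end P004
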