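import Vale.Agent.P004E.H628.PS
import Vale.Agent.P004.B

/-!
# P004E: examples of Dirichlet series with power saving
-/

open Real Finset

namespace P004
namespace PSav

open ArithmeticFunction

/-- the weight `1 / n` -/
noncomputable def wt (f : ArithmeticFunction ℝ) : ArithmeticFunction ℝ := ⟨fun n => f n / n, by simp⟩

lemma wt_apply (f : ArithmeticFunction ℝ) (n : ℕ) : wt f n = f n / n := rfl

lemma wt_mul (f g : ArithmeticFunction ℝ) : wt (f * g) = wt f * wt g := by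
  ext n
  rw [wt_apply, mul_apply, mul_apply, sum_div]
  apply sum_congr rfl
  intro x hx
  rw [Nat.mem_divisorsAntidiagonal] at hx
  rw [wt_apply, wt_apply, ← hx.1]
  push_cast
  rw [div_mul_div_comm]

lemma dv_small : ∀ ε : ℝ, 0 < ε → ∃ C : ℝ, ∀ N : ℕ, 1 ≤ N →
    ∑ n ∈ Ioc 0 N, dv n / n ≤ C * (N : ℝ) ^ ε := by
  intro ε hε
  set θ := min ε 1 with hθ
  have hθ0 : 0 < θ := lt_min hε one_pos
  obtain ⟨C, hC, K, h⟩ := pfDiv.1 1
  have h1 := h θ hθ0 (min_le_right _ _)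
  set D := C * (1 / θ) ^ K with hD
  have hD0 : 0 ≤ D := by positivity
  refine ⟨D, fun N hN => ?_⟩
  have hN0 : (0 : ℝ) < N := by exact_mod_cast hN
  have hN1 : (1 : ℝ) ≤ N := by exact_mod_cast hN
  have h2 : ∑ n ∈ Ioc 0 N, dv n * (n : ℝ) ^ (-1 - θ) ≤ D := by
    have h3 : ENNReal.ofReal (∑ n ∈ Ioc 0 N, dv n * (n : ℝ) ^ (-1 - θ)) ≤ ENNReal.ofReal D := by
      rw [ENNReal.ofReal_sum_of_nonneg]
      · refine le_trans ?_ h1
        refine le_trans (le_of_eq ?_) (ENNReal.sum_le_tsum (Ioc 0 N))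
        apply sum_congr rfl
        intro n _
        rw [pow_one]
      · intro n _
        exact mul_nonneg (Nat.cast_nonneg _) (Real.rpow_nonneg (Nat.cast_nonneg _) _)
    exact (ENNReal.ofReal_le_ofReal_iff hD0).1 h3
  calc ∑ n ∈ Ioc 0 N, dv n / n ≤ ∑ n ∈ Ioc 0 N, (dv n * (n : ℝ) ^ (-1 - θ)) * (N : ℝ) ^ θ := by
        apply sum_le_sum
        intro n hn
        rw [mem_Ioc] at hn
        have hn0 : (0 : ℝ) < n := by exact_mod_cast hn.1
        have hnN : (n : ℝ) ≤ N := by exact_mod_cast hn.2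
        rw [mul_assoc, div_eq_mul_inv]
        apply mul_le_mul_of_nonneg_left _ (Nat.cast_nonneg _)
        calc (n : ℝ)⁻¹ = (n : ℝ) ^ (-1 - θ) * (n : ℝ) ^ θ := by
              rw [← Real.rpow_add hn0, sub_add_cancel, Real.rpow_neg_one]
          _ ≤ _ := mul_le_mul_of_nonneg_left (Real.rpow_le_rpow hn0.le hnN hθ0.le)
              (Real.rpow_nonneg hn0.le _)
    _ = (∑ n ∈ Ioc 0 N, dv n * (n : ℝ) ^ (-1 - θ)) * (N : ℝ) ^ θ := (sum_mul _ _ _).symm
    _ ≤ D * (N : ℝ) ^ θ := mul_le_mul_of_nonneg_right h2 (Real.rpow_nonneg hN0.le _)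
    _ ≤ D * (N : ℝ) ^ ε := mul_le_mul_of_nonneg_left
        (Real.rpow_le_rpow_of_exponent_le hN1 (min_le_left _ _)) hD0

lemma small_of_dv {f : ArithmeticFunction ℝ} (hf : ∀ n, |f n| ≤ dv n) : ∀ ε : ℝ, 0 < ε →
    ∃ C : ℝ, ∀ N : ℕ, 1 ≤ N → ∑ n ∈ Ioc 0 N, |wt f n| ≤ C * (N : ℝ) ^ ε := by
  intro ε hε
  obtain ⟨C, hC⟩ := dv_small ε hε
  refine ⟨C, fun N hN => (sum_le_sum fun n _ => ?_).trans (hC N hN)⟩
  rw [wt_apply, abs_div, Nat.abs_cast]
  exact div_le_div_of_nonneg_right (hf n) (Nat.cast_nonneg n)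

lemma step (n : ℕ) (hn : 1 ≤ n) : √(n : ℝ) / (n * (n + 1)) ≤ 2 * (1 / √(n : ℝ) - 1 / √(n + 1 : ℝ)) := by
  have hn0 : (0 : ℝ) < n := by exact_mod_cast hn
  set a := √(n : ℝ) with ha
  set b := √(n + 1 : ℝ) with hb
  have ha0 : 0 < a := Real.sqrt_pos.2 hn0
  have hb0 : 0 < b := Real.sqrt_pos.2 (by linarith)
  have ha2 : a ^ 2 = n := Real.sq_sqrt hn0.le
  have hb2 : b ^ 2 = n + 1 := Real.sq_sqrt (by linarith)
  have hab : a ≤ b := Real.sqrt_le_sqrt (by linarith)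
  rw [← hb2, ← ha2]
  have e1 : a / (a ^ 2 * b ^ 2) = 1 / (a * b ^ 2) := by field_simp
  have e2 : 2 * (1 / a - 1 / b) = 2 * (b - a) / (a * b) := by field_simp
  have e3 : (b - a) * (b + a) = 1 := by nlinarith
  rw [e1, e2, div_le_div_iff₀ (by positivity) (by positivity)]
  have h3 : 1 ≤ 2 * (b - a) * b := by nlinarith
  have h4 : 0 < a * b := by positivity
  calc 1 * (a * b) ≤ (2 * (b - a) * b) * (a * b) := mul_le_mul_of_nonneg_right h3 h4.le
    _ = 2 * (b - a) * (a * b ^ 2) := by ring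

/-- partial summation -/
theorem ps_of_sum {f : ArithmeticFunction ℝ}
    (h1 : ∀ ε : ℝ, 0 < ε → ∃ C : ℝ, ∀ N : ℕ, 1 ≤ N → ∑ n ∈ Ioc 0 N, |wt f n| ≤ C * (N : ℝ) ^ ε)
    {C : ℝ} (h2 : ∀ N : ℕ, |∑ n ∈ Ioc 0 N, f n| ≤ C * √(N : ℝ)) : PS (wt f) := by
  refine ⟨h1, ?_⟩
  have hC : 0 ≤ C := by
    have := (abs_nonneg _).trans (h2 1)
    simpa using this
  set S : ℕ → ℝ := fun N => ∑ n ∈ Ioc 0 N, f n with hS
  set T : ℕ → ℝ := fun N => ∑ n ∈ Ioc 0 N, wt f n with hT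
  have hsucc : ∀ (g : ℕ → ℝ) (N : ℕ), ∑ n ∈ Ioc 0 (N + 1), g n = ∑ n ∈ Ioc 0 N, g n + g (N + 1) :=
    fun g N => sum_Ioc_succ_top (Nat.zero_le N) g
  set U : ℕ → ℝ := fun N => T N - S N / N with hU
  have hU1 : ∀ N : ℕ, 1 ≤ N → |U (N + 1) - U N| ≤ 2 * C * (1 / √(N : ℝ) - 1 / √((N + 1 : ℕ) : ℝ)) := by
    intro N hN
    have hN0 : (0 : ℝ) < N := by exact_mod_cast hN
    have e : U (N + 1) - U N = S N / (N * (N + 1)) := by
      simp only [hU, hT, hS, hsucc, wt_apply]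
      push_cast
      field_simp
      ring
    rw [e, abs_div, abs_of_pos (by positivity : (0 : ℝ) < N * (N + 1))]
    have h3 := step N hN
    calc |S N| / (N * (N + 1)) ≤ C * √(N : ℝ) / (N * (N + 1)) :=
          div_le_div_of_nonneg_right (h2 N) (by positivity)
      _ = C * (√(N : ℝ) / (N * (N + 1))) := by ring
      _ ≤ C * (2 * (1 / √(N : ℝ) - 1 / √(N + 1 : ℝ))) := mul_le_mul_of_nonneg_left h3 hC
      _ = _ := by push_cast; ring
  have hU2 : ∀ N : ℕ, 1 ≤ N → ∀ M, N ≤ M → |U M - U N| ≤ 2 * C * (1 / √(N : ℝ) - 1 / √(M : ℝ)) := by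
    intro N hN M hM
    induction M, hM using Nat.le_induction with
    | base => simp
    | succ M hM ih =>
      have e : U (M + 1) - U N = (U (M + 1) - U M) + (U M - U N) := by ring
      rw [e]
      refine (abs_add_le _ _).trans ?_
      have := hU1 M (hN.trans hM)
      linarith
  have hT2 : ∀ N : ℕ, 1 ≤ N → ∀ M, N ≤ M → |T M - T N| ≤ 4 * C * (1 / √(N : ℝ)) := by
    intro N hN M hM
    have h3 := hU2 N hN M hM
    have hs : ∀ K : ℕ, 1 ≤ K → |S K / K| ≤ C * (1 / √(K : ℝ)) := by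
      intro K hK
      have hK0 : (0 : ℝ) < K := by exact_mod_cast hK
      rw [abs_div, Nat.abs_cast]
      calc |S K| / K ≤ C * √(K : ℝ) / K := div_le_div_of_nonneg_right (h2 K) hK0.le
        _ = C * (1 / √(K : ℝ)) := by
            rw [mul_div_assoc, Real.sqrt_div_self']
    have h4 := hs N hN
    have h5 := hs M (hN.trans hM)
    have e : T M - T N = (U M - U N) + S M / M - S N / N := by simp only [hU]; ring
    rw [e]
    have h6 : |(U M - U N) + S M / M - S N / N| ≤ |U M - U N| + |S M / M| + |S N / N| :=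
      (abs_sub _ _).trans (add_le_add (abs_add_le _ _) le_rfl)
    have h8 : 0 ≤ 1 / √(M : ℝ) := by positivity
    have h9 : 0 ≤ C * (1 / √(M : ℝ)) := mul_nonneg hC h8
    have h10 : 0 ≤ C * (1 / √(N : ℝ)) := by positivity
    calc _ ≤ |U M - U N| + |S M / M| + |S N / N| := h6
      _ ≤ 2 * C * (1 / √(N : ℝ) - 1 / √(M : ℝ)) + C * (1 / √(M : ℝ)) + C * (1 / √(N : ℝ)) :=
          add_le_add (add_le_add h3 h5) h4
      _ ≤ _ := by linarith
  have hlim : Filter.Tendsto (fun N : ℕ => 4 * C * (1 / √(N : ℝ))) Filter.atTop (nhds 0) := by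
    have h3 : Filter.Tendsto (fun N : ℕ => 1 / √(N : ℝ)) Filter.atTop (nhds 0) := by
      have h4 : Filter.Tendsto (fun N : ℕ => √(N : ℝ)) Filter.atTop Filter.atTop :=
        Real.tendsto_sqrt_atTop.comp tendsto_natCast_atTop_atTop
      exact h4.inv_tendsto_atTop.congr (fun N => by rw [Pi.inv_apply, one_div])
    simpa using h3.const_mul (4 * C)
  have hc : CauchySeq T := by
    rw [Metric.cauchySeq_iff']
    intro ε hε
    obtain ⟨N, hN⟩ := (Filter.eventually_atTop.1 ((hlim.eventually_lt_const hε).and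
      (Filter.eventually_ge_atTop 1)))
    refine ⟨N, fun M hM => ?_⟩
    rw [Real.dist_eq]
    exact (hT2 N (hN N le_rfl).2 M hM).trans_lt (hN N le_rfl).1
  obtain ⟨G, hG⟩ := cauchySeq_tendsto_of_complete hc
  refine ⟨G, 4 * C, 1 / 2, by norm_num, fun N hN => ?_⟩
  have h3 : |G - T N| ≤ 4 * C * (1 / √(N : ℝ)) := by
    have h4 : Filter.Tendsto (fun M => |T M - T N|) Filter.atTop (nhds |G - T N|) :=
      (hG.sub_const _).abs
    exact le_of_tendsto h4 (Filter.eventually_atTop.2 ⟨N, fun M hM => hT2 N hN M hM⟩)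
  rw [abs_sub_comm] at h3
  refine h3.trans (le_of_eq ?_)
  rw [Real.rpow_neg (Nat.cast_nonneg N), ← Real.sqrt_eq_rpow, one_div]

/-- absolutely convergent series -/
theorem ps_of_summable {f : ArithmeticFunction ℝ}
    (h : Summable (fun n : ℕ => |f n| * (n : ℝ) ^ (-(3 / 4) : ℝ))) : PS (wt f) := by
  set D := ∑' n : ℕ, |f n| * (n : ℝ) ^ (-(3 / 4) : ℝ) with hD
  have hnn : ∀ n : ℕ, 0 ≤ |f n| * (n : ℝ) ^ (-(3 / 4) : ℝ) := fun n =>
    mul_nonneg (abs_nonneg _) (Real.rpow_nonneg (Nat.cast_nonneg _) _)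
  have hD0 : 0 ≤ D := tsum_nonneg hnn
  have hle : ∀ n : ℕ, |wt f n| = (|f n| * (n : ℝ) ^ (-(3 / 4) : ℝ)) * (n : ℝ) ^ (-(1 / 4) : ℝ) := by
    intro n
    rcases Nat.eq_zero_or_pos n with rfl | hn
    · simp
    · have hn0 : (0 : ℝ) < n := by exact_mod_cast hn
      rw [wt_apply, abs_div, Nat.abs_cast, mul_assoc, ← Real.rpow_add hn0]
      norm_num
      rw [Real.rpow_neg_one, div_eq_mul_inv]
  have hle1 : ∀ n : ℕ, |wt f n| ≤ |f n| * (n : ℝ) ^ (-(3 / 4) : ℝ) := by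
    intro n
    rw [hle]
    apply mul_le_of_le_one_right (hnn n)
    rcases Nat.eq_zero_or_pos n with rfl | hn
    · norm_num
    · apply Real.rpow_le_one_of_one_le_of_nonpos (by exact_mod_cast hn) (by norm_num)
  have hs : Summable (fun n => wt f n) := by
    refine Summable.of_norm_bounded h (fun n => ?_)
    rw [Real.norm_eq_abs]; exact hle1 n
  constructor
  · intro ε hε
    refine ⟨D, fun N hN => ?_⟩
    have hN1 : (1 : ℝ) ≤ N := by exact_mod_cast hN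
    calc ∑ n ∈ Ioc 0 N, |wt f n| ≤ ∑ n ∈ Ioc 0 N, |f n| * (n : ℝ) ^ (-(3 / 4) : ℝ) :=
          sum_le_sum fun n _ => hle1 n
      _ ≤ D := h.sum_le_tsum _ (fun n _ => hnn n)
      _ = D * 1 := (mul_one _).symm
      _ ≤ D * (N : ℝ) ^ ε := mul_le_mul_of_nonneg_left (Real.one_le_rpow hN1 hε.le) hD0
  · refine ⟨∑' n, wt f n, D, 1 / 4, by norm_num, fun N hN => ?_⟩
    have hN0 : (0 : ℝ) < N := by exact_mod_cast hN
    have h1 : ∑ n ∈ Ioc 0 N, wt f n = ∑ n ∈ range (N + 1), wt f n := by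
      rw [← sum_subset (s₁ := Ioc 0 N) (s₂ := range (N + 1))]
      · intro n hn
        rw [mem_Ioc] at hn
        rw [mem_range]; omega
      · intro n hn hn'
        rw [mem_range] at hn
        rw [mem_Ioc] at hn'
        have : n = 0 := by omega
        rw [this]; simp
    have h2 := hs.sum_add_tsum_nat_add (N + 1)
    rw [h1, ← h2, sub_add_cancel_left, abs_neg]
    have hs' : Summable (fun n => |f (n + (N + 1))| * ((n + (N + 1) : ℕ) : ℝ) ^ (-(3 / 4) : ℝ)) :=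
      (summable_nat_add_iff (f := fun n : ℕ => |f n| * (n : ℝ) ^ (-(3 / 4) : ℝ)) (N + 1)).2 h
    have h3 : ∀ n : ℕ, ‖wt f (n + (N + 1))‖ ≤
        (|f (n + (N + 1))| * ((n + (N + 1) : ℕ) : ℝ) ^ (-(3 / 4) : ℝ)) * (N : ℝ) ^ (-(1 / 4) : ℝ) := by
      intro n
      rw [Real.norm_eq_abs, hle]
      apply mul_le_mul_of_nonneg_left _ (hnn _)
      apply Real.rpow_le_rpow_of_nonpos hN0 _ (by norm_num)
      push_cast
      have : (0 : ℝ) ≤ n := Nat.cast_nonneg n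
      linarith
    have h4 := tsum_of_norm_bounded (hs'.mul_right ((N : ℝ) ^ (-(1 / 4) : ℝ))).hasSum h3
    rw [Real.norm_eq_abs] at h4
    refine h4.trans ?_
    rw [tsum_mul_right]
    apply mul_le_mul_of_nonneg_right _ (Real.rpow_nonneg hN0.le _)
    have h5 := h.sum_add_tsum_nat_add (N + 1)
    rw [← hD] at h5
    have h6 : 0 ≤ ∑ n ∈ range (N + 1), |f n| * (n : ℝ) ^ (-(3 / 4) : ℝ) :=
      sum_nonneg fun n _ => hnn n
    linarith

end PSav
end P004
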